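import Vale.Agent.P184.Local

/-!
# Commensurating actions
-/

set_option linter.unusedSectionVars false

namespace Vale.Agent.P184

open scoped BigOperators
open Filter

section

variable {G : Type*} [Group G] {Y : Type*} [MulAction G Y] (M : Set Y)

lemma mem_moved (g : G) (y : Y) : y ∈ moved M g ↔ ¬ (y ∈ M ↔ g • y ∈ M) := Iff.rfl

variable (hM : ∀ g : G, (moved M g).Finite)

include hM in
lemma moved_isLength : IsLength fun g : G => ((moved M g).ncard : ℝ) := by
  constructor
  · intro g k
    have h1 : moved M (g * k) ⊆ moved M k ∪ (fun y => k⁻¹ • y) '' moved M g := by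
      intro y hy
      by_contra hcon
      rw [Set.mem_union, not_or] at hcon
      obtain ⟨ha, hb⟩ := hcon
      rw [mem_moved, not_not] at ha
      have hb' : k • y ∉ moved M g := by
        intro h
        exact hb ⟨k • y, h, by simp⟩
      rw [mem_moved, not_not, smul_smul] at hb'
      exact hy (ha.trans hb')
    have h2 := Set.ncard_le_ncard h1 ((hM k).union ((hM g).image _))
    have h3 := Set.ncard_union_le (moved M k) ((fun y => k⁻¹ • y) '' moved M g)
    have h4 := Set.ncard_image_le (f := fun y => k⁻¹ • y) (hM g)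
    have h5 : (moved M (g * k)).ncard ≤ (moved M g).ncard + (moved M k).ncard := by omega
    exact_mod_cast h5
  · intro g
    have h1 : ∀ g : G, (moved M g⁻¹).ncard ≤ (moved M g).ncard := by
      intro g
      have h2 : moved M g⁻¹ ⊆ (fun y => g • y) '' moved M g := by
        intro y hy
        refine ⟨g⁻¹ • y, ?_, by simp⟩
        rw [mem_moved] at hy ⊢
        rw [smul_inv_smul]
        tauto
      exact (Set.ncard_le_ncard h2 ((hM g).image _)).trans (Set.ncard_image_le (hM g))
    have h2 := h1 g
    have h3 := h1 g⁻¹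
    rw [inv_inv] at h3
    have : (moved M g⁻¹).ncard = (moved M g).ncard := le_antisymm h2 h3
    exact_mod_cast this

/-- The points that enter `M` in the future and leave it in the past, for the action of `h`. -/
def future (h : G) : Set Y :=
  {y | (∀ᶠ j : ℤ in atTop, h ^ j • y ∈ M) ∧ (∀ᶠ j : ℤ in atBot, h ^ j • y ∉ M)}

lemma future_injective {h : G} {y : Y} (hy : y ∈ future M h) :
    Function.Injective fun j : ℤ => h ^ j • y := by
  -- a positive period gives a contradiction
  have key : ∀ k : ℤ, 0 < k → h ^ k • y ≠ y := by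
    intro k hk hper
    have hmul : ∀ m : ℤ, h ^ (k * m) • y = y := by
      intro m
      have h1 : ∀ m : ℕ, h ^ (k * (m : ℤ)) • y = y := by
        intro m
        induction m with
        | zero => simp
        | succ m ih =>
          have : k * ((m + 1 : ℕ) : ℤ) = k * m + k := by push_cast; ring
          rw [this, zpow_add, mul_smul, hper, ih]
      obtain ⟨n, rfl | rfl⟩ := m.eq_nat_or_neg
      · exact h1 n
      · have h2 := h1 n
        rw [mul_neg, zpow_neg, inv_smul_eq_iff]
        exact h2.symm
    obtain ⟨N, hN⟩ := eventually_atTop.1 hy.1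
    obtain ⟨N', hN'⟩ := eventually_atBot.1 hy.2
    have h3 : y ∈ M := by
      have := hN (k * |N|) (by nlinarith [abs_nonneg N, le_abs_self N])
      rwa [hmul] at this
    have h4 : y ∉ M := by
      have := hN' (k * (-|N'|)) (by nlinarith [abs_nonneg N', neg_abs_le N'])
      rwa [hmul] at this
    exact h4 h3
  intro i j hij
  simp only at hij
  by_contra hne
  have h1 : ∀ i j : ℤ, h ^ i • y = h ^ j • y → i < j → False := by
    intro i j hij hlt
    apply key (j - i) (by omega)
    have e1 : j - i = -i + j := by ring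
    rw [e1, zpow_add, mul_smul, ← hij, smul_smul, ← zpow_add]
    simp
  rcases lt_or_gt_of_ne hne with h | h
  · exact h1 i j hij h
  · exact h1 j i hij.symm h

lemma future_smul_mem {h z : G} (hz : Commute z h) (hD : (moved M z).Finite) {y : Y}
    (hy : y ∈ future M h) : z • y ∈ future M h := by
  have hinj := future_injective M hy
  have hcof : ∀ᶠ j : ℤ in cofinite, h ^ j • y ∉ moved M z := by
    rw [eventually_cofinite]
    have : {j : ℤ | ¬ (h ^ j • y ∉ moved M z)} = (fun j : ℤ => h ^ j • y) ⁻¹' moved M z := by
      ext j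
      simp
    rw [this]
    exact hD.preimage hinj.injOn
  rw [Int.cofinite_eq, eventually_sup] at hcof
  have hcomm : ∀ j : ℤ, h ^ j • (z • y) = z • (h ^ j • y) := by
    intro j
    rw [smul_smul, smul_smul, (hz.zpow_right j).eq]
  constructor
  · filter_upwards [hy.1, hcof.2] with j h1 h2
    rw [mem_moved, not_not] at h2
    rw [hcomm]
    exact h2.1 h1
  · filter_upwards [hy.2, hcof.1] with j h1 h2
    rw [mem_moved, not_not] at h2
    rw [hcomm]
    exact fun h3 => h1 (h2.2 h3)

lemma future_smul_mem_iff {h z : G} (hz : Commute z h) (hM : ∀ g : G, (moved M g).Finite) (y : Y) :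
    z • y ∈ future M h ↔ y ∈ future M h := by
  constructor
  · intro h1
    have := future_smul_mem M hz.inv_left (hM z⁻¹) h1
    rwa [inv_smul_smul] at this
  · exact future_smul_mem M hz (hM z)

/-- The local displacement. -/
noncomputable def disp (h z : G) (y : Y) : ℝ := by
  classical
  exact if y ∈ future M h then ((if z • y ∈ M then 1 else 0) - (if y ∈ M then 1 else 0)) else 0

lemma disp_support (h z : G) : Function.support (disp M h z) ⊆ moved M z := by
  classical
  intro y hy
  rw [Function.mem_support] at hy
  rw [mem_moved]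
  intro hcon
  apply hy
  unfold disp
  by_cases h1 : y ∈ M
  · simp [h1, hcon.1 h1]
  · have : z • y ∉ M := fun h2 => h1 (hcon.2 h2)
    simp [h1, this]

lemma abs_disp_le (h z : G) (y : Y) : |disp M h z y| ≤ 1 := by
  classical
  unfold disp
  split_ifs <;> simp

/-- The transfer function. -/
noncomputable def transfer (h z : G) : ℝ := ∑ᶠ y, disp M h z y

lemma transfer_mul {h z w : G} (hM : ∀ g : G, (moved M g).Finite) (hw : Commute w h) :
    transfer M h (z * w) = transfer M h z + transfer M h w := by
  classical
  have h1 : ∀ y, disp M h (z * w) y = disp M h z (w • y) + disp M h w y := by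
    intro y
    unfold disp
    simp only [future_smul_mem_iff M hw hM, mul_smul]
    split_ifs <;> simp
  have h2 : transfer M h z = ∑ᶠ y, disp M h z (w • y) := by
    unfold transfer
    exact (finsum_comp_equiv (MulAction.toPerm w)).symm
  rw [h2]
  unfold transfer
  rw [finsum_congr h1, finsum_add_distrib]
  · have : Function.support (fun y => disp M h z (w • y)) ⊆ (fun y => w • y) ⁻¹' moved M z := by
      intro y hy
      exact disp_support M h z hy
    exact ((hM z).preimage (MulAction.injective w).injOn).subset this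
  · exact (hM w).subset (disp_support M h w)

lemma transfer_eq_sum (h z : G) (s : Finset Y) (hs : moved M z ⊆ s) :
    transfer M h z = ∑ y ∈ s, disp M h z y :=
  finsum_eq_sum_of_support_subset _ ((disp_support M h z).trans hs)

lemma abs_transfer_le (h z : G) (hM : ∀ g : G, (moved M g).Finite) :
    |transfer M h z| ≤ (moved M z).ncard := by
  classical
  rw [transfer_eq_sum M h z (hM z).toFinset (by simp)]
  refine (Finset.abs_sum_le_sum_abs _ _).trans ?_
  refine (Finset.sum_le_sum fun y _ => abs_disp_le M h z y).trans ?_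
  rw [Finset.sum_const, nsmul_eq_mul, mul_one, Set.ncard_eq_toFinset_card _ (hM z)]

/-- The finite set of points that are pushed out of `M`, up to the action of `h`. -/
lemma exists_bad (h : G) (hM : ∀ g : G, (moved M g).Finite) :
    ∃ B : Finset Y, ∀ (n : ℕ) (y : Y), y ∈ future M h → y ∈ M → h ^ n • y ∉ M → y ∈ B := by
  classical
  set E : Set Y := moved M h ∩ future M h with hE
  have hEfin : E.Finite := (hM h).subset Set.inter_subset_left
  set B : Set Y := ⋃ e ∈ E, (fun i : ℕ => h ^ (-(i : ℤ)) • e) '' {i : ℕ | h ^ (-(i : ℤ)) • e ∈ M}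
    with hB
  have hBfin : B.Finite := by
    apply hEfin.biUnion
    intro e he
    apply Set.Finite.image
    obtain ⟨N, hN⟩ := eventually_atBot.1 he.2.2
    apply (Set.finite_Iio (N.natAbs + 1)).subset
    intro i hi
    simp only [Set.mem_ofPred_eq] at hi
    simp only [Set.mem_Iio]
    by_contra hcon
    apply hN (-(i : ℤ)) _ hi
    omega
  refine ⟨hBfin.toFinset, ?_⟩
  intro n y hyf hy hny
  rw [Set.Finite.mem_toFinset]
  -- find the last time before leaving
  have : ∃ j : ℕ, h ^ j • y ∈ M ∧ h ^ (j + 1) • y ∉ M := by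
    by_contra hcon
    push Not at hcon
    have hall : ∀ j : ℕ, h ^ j • y ∈ M := by
      intro j
      induction j with
      | zero => simpa using hy
      | succ j ih => exact hcon j ih
    exact hny (hall n)
  obtain ⟨j, hj1, hj2⟩ := this
  rw [hB, Set.mem_iUnion₂]
  refine ⟨h ^ j • y, ⟨?_, ?_⟩, ⟨j, ?_, ?_⟩⟩
  · rw [mem_moved, smul_smul, ← pow_succ']
    tauto
  · exact future_smul_mem M (Commute.pow_left (Commute.refl h) j) (hM _) hyf
  · simp only [Set.mem_ofPred_eq]
    rw [zpow_neg, zpow_natCast, inv_smul_smul]
    exact hy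
  · simp only
    rw [zpow_neg, zpow_natCast, inv_smul_smul]

lemma tame_of_future_nonempty {h : G} (hM : ∀ g : G, (moved M g).Finite)
    (hne : (future M h).Nonempty) : Tame h := by
  classical
  refine ⟨fun g => ((moved M g).ncard : ℝ), moved_isLength M hM, transfer M h,
    fun z w _ hw => transfer_mul M hM hw, fun z _ => abs_transfer_le M h z hM, ?_⟩
  intro h0
  -- the transfer vanishes on all powers
  have hpow : ∀ n : ℕ, transfer M h (h ^ n) = 0 := by
    intro n
    induction n with
    | zero =>
      have h1 := transfer_mul M (h := h) (z := 1) (w := 1) hM (Commute.one_left h)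
      rw [mul_one] at h1
      rw [pow_zero]
      linarith
    | succ n ih => rw [pow_succ, transfer_mul M hM (Commute.refl h), ih, h0, add_zero]
  obtain ⟨y, hy⟩ := hne
  obtain ⟨B, hB⟩ := exists_bad M h hM
  obtain ⟨N, hN⟩ := eventually_atTop.1 hy.1
  obtain ⟨N', hN'⟩ := eventually_atBot.1 hy.2
  set K : ℕ := N.natAbs + N'.natAbs with hK
  set n : ℕ := 2 * K + B.card with hn
  -- the points that enter
  set A : Finset Y := (Finset.Icc ((K : ℤ) - n) (-(K : ℤ))).image fun j : ℤ => h ^ j • y with hA
  have hAcard : A.card = B.card + 1 := by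
    rw [hA, Finset.card_image_of_injective _ (future_injective M hy), Int.card_Icc, hn]
    push_cast
    omega
  have hAmem : ∀ a ∈ A, a ∈ future M h ∧ a ∉ M ∧ h ^ n • a ∈ M := by
    intro a ha
    rw [hA, Finset.mem_image] at ha
    obtain ⟨j, hj, rfl⟩ := ha
    rw [Finset.mem_Icc] at hj
    refine ⟨?_, ?_, ?_⟩
    · exact future_smul_mem M (Commute.zpow_left (Commute.refl h) j) (hM _) hy
    · exact hN' j (by omega)
    · have : h ^ n • h ^ j • y = h ^ ((n : ℤ) + j) • y := by
        rw [smul_smul, zpow_add, zpow_natCast]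
      rw [this]
      exact hN _ (by omega)
  set s : Finset Y := (hM (h ^ n)).toFinset ∪ A ∪ B with hs
  have hsum := transfer_eq_sum M h (h ^ n) s (by
    intro x hx
    rw [hs]
    simp only [Finset.coe_union, Set.mem_union, Set.Finite.coe_toFinset]
    exact Or.inl (Or.inl hx))
  rw [hpow] at hsum
  have hle : ∀ x ∈ s, (if x ∈ A then (1 : ℝ) else 0) - (if x ∈ B then 1 else 0) ≤
      disp M h (h ^ n) x := by
    intro x _
    by_cases hxA : x ∈ A
    · obtain ⟨h1, h2, h3⟩ := hAmem x hxA
      unfold disp
      simp only [hxA, h1, h2, h3, if_true, if_false]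
      split_ifs <;> norm_num
    · unfold disp
      by_cases hxf : x ∈ future M h
      · by_cases hxM : x ∈ M
        · by_cases hnx : h ^ n • x ∈ M
          · simp only [hxA, hxf, hxM, hnx, if_true, if_false]
            split_ifs <;> norm_num
          · have := hB n x hxf hxM hnx
            simp [hxA, hxf, hxM, hnx, this]
        · simp only [hxA, hxf, hxM, if_true, if_false]
          split_ifs <;> norm_num
      · simp only [hxA, hxf, if_false]
        split_ifs <;> norm_num
  have h1 := Finset.sum_le_sum hle
  rw [← hsum, Finset.sum_sub_distrib] at h1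
  have hA' : ∑ x ∈ s, (if x ∈ A then (1 : ℝ) else 0) = A.card := by
    rw [Finset.sum_ite_mem, Finset.sum_const, nsmul_eq_mul, mul_one]
    congr 2
    apply Finset.inter_eq_right.2
    intro x hx
    rw [hs]
    simp [hx]
  have hB' : ∑ x ∈ s, (if x ∈ B then (1 : ℝ) else 0) = B.card := by
    rw [Finset.sum_ite_mem, Finset.sum_const, nsmul_eq_mul, mul_one]
    congr 2
    apply Finset.inter_eq_right.2
    intro x hx
    rw [hs]
    simp [hx]
  rw [hA', hB', hAcard] at h1
  push_cast at h1
  linarith

lemma eventually_const_atTop {p : ℤ → Prop} (h : ∀ᶠ j in atTop, (p j ↔ p (j + 1))) :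
    ∃ N : ℤ, ∀ j ≥ N, (p j ↔ p N) := by
  obtain ⟨N, hN⟩ := eventually_atTop.1 h
  refine ⟨N, ?_⟩
  have : ∀ k : ℕ, (p (N + k) ↔ p N) := by
    intro k
    induction k with
    | zero => simp
    | succ k ih =>
      have h1 := hN (N + k) (by omega)
      have h2 : N + ((k + 1 : ℕ) : ℤ) = N + k + 1 := by push_cast; ring
      rw [h2, ← h1, ih]
  intro j hj
  have h1 := this (j - N).toNat
  have h2 : N + ((j - N).toNat : ℤ) = j := by omega
  rwa [h2] at h1

lemma eventually_const_atBot {p : ℤ → Prop} (h : ∀ᶠ j in atBot, (p j ↔ p (j + 1))) :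
    ∃ N : ℤ, ∀ j ≤ N, (p j ↔ p N) := by
  obtain ⟨N, hN⟩ := eventually_atBot.1 h
  refine ⟨N, ?_⟩
  have : ∀ k : ℕ, (p (N - k) ↔ p N) := by
    intro k
    induction k with
    | zero => simp
    | succ k ih =>
      have h1 := hN (N - ((k + 1 : ℕ) : ℤ)) (by omega)
      have h2 : N - ((k + 1 : ℕ) : ℤ) + 1 = N - k := by push_cast; ring
      rw [h2] at h1
      rw [h1, ih]
  intro j hj
  have h1 := this (N - j).toNat
  have h2 : N - ((N - j).toNat : ℤ) = j := by omega
  rwa [h2] at h1

lemma orbit_bound {h : G} (hM : ∀ g : G, (moved M g).Finite)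
    (h1 : future M h = ∅) (h2 : future M h⁻¹ = ∅) (e : Y) :
    ∃ C : ℕ, ∀ n : ℕ, ∃ s : Finset Y, s.card ≤ C ∧
      ∀ i : ℤ, h ^ i • e ∈ moved M (h ^ n) → h ^ i • e ∈ s := by
  classical
  by_cases hinj : Function.Injective fun j : ℤ => h ^ j • e
  · have hcof : ∀ᶠ j : ℤ in cofinite, (h ^ j • e ∈ M ↔ h ^ (j + 1) • e ∈ M) := by
      rw [eventually_cofinite]
      have : {j : ℤ | ¬ (h ^ j • e ∈ M ↔ h ^ (j + 1) • e ∈ M)} =
          (fun j : ℤ => h ^ j • e) ⁻¹' moved M h := by
        ext j
        have h3 : h ^ (j + 1) • e = h • h ^ j • e := by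
          rw [smul_smul, zpow_add, zpow_one, (Commute.zpow_self h j).eq]
        simp only [Set.mem_preimage, mem_moved, ← h3, Set.mem_ofPred_eq]
      rw [this]
      exact (hM h).preimage hinj.injOn
    rw [Int.cofinite_eq, eventually_sup] at hcof
    obtain ⟨N, hN⟩ := eventually_const_atTop hcof.2
    obtain ⟨N', hN'⟩ := eventually_const_atBot hcof.1
    have heq : h ^ N • e ∈ M ↔ h ^ N' • e ∈ M := by
      by_contra hcon
      by_cases hA : h ^ N • e ∈ M
      · have hB : h ^ N' • e ∉ M := fun hB => hcon ⟨fun _ => hB, fun _ => hA⟩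
        have : e ∈ future M h := by
          constructor
          · filter_upwards [eventually_ge_atTop N] with j hj
            exact (hN j hj).2 hA
          · filter_upwards [eventually_le_atBot N'] with j hj
            exact fun h3 => hB ((hN' j hj).1 h3)
        rw [h1] at this
        exact this
      · have hB : h ^ N' • e ∈ M := by
          by_contra hB
          exact hcon ⟨fun h => absurd h hA, fun h => absurd h hB⟩
        have : e ∈ future M h⁻¹ := by
          constructor
          · filter_upwards [eventually_ge_atTop (-N')] with j hj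
            rw [inv_zpow']
            exact (hN' (-j) (by omega)).2 hB
          · filter_upwards [eventually_le_atBot (-N)] with j hj
            rw [inv_zpow']
            exact fun h3 => hA ((hN (-j) (by omega)).1 h3)
        rw [h2] at this
        exact this
    set K : ℤ := |N| + |N'| with hK
    have hconst : ∀ i : ℤ, i ∉ Finset.Icc (-K) K → (h ^ i • e ∈ M ↔ h ^ N • e ∈ M) := by
      intro i hi
      rw [Finset.mem_Icc, not_and_or, not_le, not_le] at hi
      rcases hi with hi | hi
      · have hle : i ≤ N' := by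
          have := neg_abs_le N'
          have := abs_nonneg N
          omega
        rw [hN' i hle, heq]
      · have hle : N ≤ i := by
          have := le_abs_self N
          have := abs_nonneg N'
          omega
        exact hN i hle
    refine ⟨((Finset.Icc (-K) K).card + (Finset.Icc (-K) K).card), fun n => ⟨
      (Finset.Icc (-K) K ∪ (Finset.Icc (-K) K).image (fun i => i - n)).image
        (fun i : ℤ => h ^ i • e), ?_, ?_⟩⟩
    · refine Finset.card_image_le.trans ?_
      refine (Finset.card_union_le _ _).trans ?_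
      exact Nat.add_le_add_left Finset.card_image_le _
    · intro i hi
      rw [Finset.mem_image]
      refine ⟨i, ?_, rfl⟩
      rw [Finset.mem_union]
      by_contra hcon
      rw [not_or] at hcon
      have h3 := hconst i hcon.1
      have h4 := hconst (i + n) (by
        intro h5
        apply hcon.2
        rw [Finset.mem_image]
        exact ⟨i + n, h5, by ring⟩)
      rw [mem_moved] at hi
      apply hi
      have h5 : h ^ n • h ^ i • e = h ^ (i + (n : ℤ)) • e := by
        rw [smul_smul, zpow_add, zpow_natCast, ((Commute.refl h).zpow_left i).pow_right n |>.eq]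
      rw [h5, h3, h4]
  · rw [Function.Injective] at hinj
    push Not at hinj
    obtain ⟨a, b, hab, hne⟩ := hinj
    have hk : ∃ k : ℤ, 0 < k ∧ h ^ k • e = e := by
      have key : ∀ i j : ℤ, h ^ i • e = h ^ j • e → i < j → ∃ k : ℤ, 0 < k ∧ h ^ k • e = e := by
        intro i j hij hlt
        refine ⟨j - i, by omega, ?_⟩
        have e1 : j - i = -i + j := by ring
        rw [e1, zpow_add, mul_smul, ← hij, smul_smul, ← zpow_add]
        simp
      rcases lt_or_gt_of_ne hne with h3 | h3
      · exact key a b hab h3
      · exact key b a hab.symm h3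
    obtain ⟨k, hk0, hk⟩ := hk
    have hmul : ∀ m : ℤ, h ^ (k * m) • e = e := by
      intro m
      have h1 : ∀ m : ℕ, h ^ (k * (m : ℤ)) • e = e := by
        intro m
        induction m with
        | zero => simp
        | succ m ih =>
          have : k * ((m + 1 : ℕ) : ℤ) = k * m + k := by push_cast; ring
          rw [this, zpow_add, mul_smul, hk, ih]
      obtain ⟨n, rfl | rfl⟩ := m.eq_nat_or_neg
      · exact h1 n
      · have h2 := h1 n
        rw [mul_neg, zpow_neg, inv_smul_eq_iff]
        exact h2.symm
    refine ⟨((Finset.Ico 0 k).image (fun i : ℤ => h ^ i • e)).card, fun n =>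
      ⟨(Finset.Ico 0 k).image (fun i : ℤ => h ^ i • e), le_rfl, ?_⟩⟩
    intro i _
    rw [Finset.mem_image]
    refine ⟨i % k, ?_, ?_⟩
    · rw [Finset.mem_Ico]
      exact ⟨Int.emod_nonneg _ hk0.ne', Int.emod_lt_of_pos _ hk0⟩
    · have h3 : i = i % k + k * (i / k) := (Int.emod_add_mul_ediv i k).symm
      conv_rhs => rw [h3, zpow_add, mul_smul, hmul]

lemma bounded_of_future_empty {h : G} (hM : ∀ g : G, (moved M g).Finite)
    (h1 : future M h = ∅) (h2 : future M h⁻¹ = ∅) :
    ∃ C : ℕ, ∀ n : ℕ, (moved M (h ^ n)).ncard ≤ C := by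
  classical
  choose C hC using fun e : Y => orbit_bound M hM h1 h2 e
  refine ⟨∑ e ∈ (hM h).toFinset, C e, fun n => ?_⟩
  choose s hs1 hs2 using fun e : Y => hC e n
  have hsub : moved M (h ^ n) ⊆ ((hM h).toFinset.biUnion s : Finset Y) := by
    intro y hy
    have : ∃ j : ℕ, h ^ j • y ∈ moved M h := by
      by_contra hcon
      push Not at hcon
      have hall : ∀ j : ℕ, (y ∈ M ↔ h ^ j • y ∈ M) := by
        intro j
        induction j with
        | zero => simp
        | succ j ih =>
          have h3 := hcon j
          rw [mem_moved, not_not] at h3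
          rw [ih, h3, smul_smul, ← pow_succ']
      exact hy (hall n)
    obtain ⟨j, hj⟩ := this
    rw [Finset.mem_coe, Finset.mem_biUnion]
    refine ⟨h ^ j • y, by simpa using hj, ?_⟩
    have h3 : h ^ (-(j : ℤ)) • h ^ j • y = y := by
      rw [zpow_neg, zpow_natCast, inv_smul_smul]
    have h4 := hs2 (h ^ j • y) (-(j : ℤ))
    rw [h3] at h4
    exact h4 hy
  have h3 := Set.ncard_le_ncard hsub (Finset.finite_toSet _)
  rw [Set.ncard_coe_finset] at h3
  refine h3.trans (Finset.card_biUnion_le.trans ?_)
  exact Finset.sum_le_sum fun e _ => hs1 e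

lemma Tame.of_inv {h : G} (ht : Tame h⁻¹) : Tame h := by
  obtain ⟨L, hL, ρ, h1, h2, h3⟩ := ht
  refine ⟨L, hL, ρ, fun z w hz hw => h1 z w hz.inv_right hw.inv_right,
    fun z hz => h2 z hz.inv_right, ?_⟩
  intro h0
  apply h3
  have e1 := h1 1 1 (Commute.one_left _) (Commute.one_left _)
  have e2 := h1 h h⁻¹ (Commute.refl h).inv_right (Commute.refl _)
  rw [mul_inv_cancel] at e2
  rw [mul_one] at e1
  linarith

/-- **Commensurating actions.** If `G` acts on a set and commensurates a subset `M`, then every
element `h` for which the number of points moved in or out of `M` by `h ^ n` is unbounded is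
tame. -/
theorem tame_of_commensurating {h : G} (hM : ∀ g : G, (moved M g).Finite)
    (hunb : ∀ C : ℕ, ∃ n : ℕ, C < (moved M (h ^ n)).ncard) : Tame h := by
  by_cases h1 : (future M h).Nonempty
  · exact tame_of_future_nonempty M hM h1
  by_cases h2 : (future M h⁻¹).Nonempty
  · exact Tame.of_inv (tame_of_future_nonempty M hM h2)
  rw [Set.not_nonempty_iff_eq_empty] at h1 h2
  obtain ⟨C, hC⟩ := bounded_of_future_empty M hM h1 h2
  obtain ⟨n, hn⟩ := hunb C
  exact absurd (hC n) (not_le.2 hn)

end

end Vale.Agent.P184
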