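import Vale.Agent.P184.Local

/-!
# A generalised limit of Cesaro means, and two criteria for tameness
-/

set_option linter.unusedSectionVars false

namespace Vale.Agent.P184

open scoped BigOperators Topology
open Filter

section ulim

/-- The Cesaro means of a sequence. -/
noncomputable def ces (f : ℕ → ℝ) (N : ℕ) : ℝ := (∑ k ∈ Finset.range (N + 1), f k) / (N + 1)

lemma abs_ces_le {f : ℕ → ℝ} {C : ℝ} (hf : ∀ n, |f n| ≤ C) (N : ℕ) : |ces f N| ≤ C := by
  unfold ces
  rw [abs_div, abs_of_pos (by positivity : (0 : ℝ) < N + 1), div_le_iff₀ (by positivity)]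
  refine (Finset.abs_sum_le_sum_abs _ _).trans ?_
  refine (Finset.sum_le_sum fun k _ => hf k).trans ?_
  rw [Finset.sum_const, Finset.card_range, nsmul_eq_mul]
  push_cast
  linarith

/-- A generalised limit of the Cesaro means. -/
noncomputable def glim (f : ℕ → ℝ) : ℝ := limUnder (hyperfilter ℕ : Filter ℕ) (ces f)

lemma tendsto_glim {f : ℕ → ℝ} {C : ℝ} (hf : ∀ n, |f n| ≤ C) :
    Tendsto (ces f) (hyperfilter ℕ : Filter ℕ) (𝓝 (glim f)) := by
  have hmem : ∀ N, ces f N ∈ Set.Icc (-C) C := fun N => abs_le.1 (abs_ces_le hf N)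
  have h1 : ((hyperfilter ℕ).map (ces f) : Filter ℝ) ≤ 𝓟 (Set.Icc (-C) C) := by
    rw [Filter.le_principal_iff]
    exact Filter.mem_map.2 (Filter.univ_mem' hmem)
  obtain ⟨x, _, hx⟩ := isCompact_Icc.ultrafilter_le_nhds _ h1
  have h2 : Tendsto (ces f) (hyperfilter ℕ : Filter ℕ) (𝓝 x) := hx
  unfold glim
  rw [h2.limUnder_eq]
  exact h2

lemma glim_add {f g : ℕ → ℝ} {C D : ℝ} (hf : ∀ n, |f n| ≤ C) (hg : ∀ n, |g n| ≤ D) :
    glim (fun n => f n + g n) = glim f + glim g := by
  have hfg : ∀ n, |f n + g n| ≤ C + D := fun n =>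
    (abs_add_le _ _).trans (add_le_add (hf n) (hg n))
  have h1 := (tendsto_glim hf).add (tendsto_glim hg)
  have h2 := tendsto_glim hfg
  have h3 : (fun N => ces f N + ces g N) = ces fun n => f n + g n := by
    funext N
    unfold ces
    rw [Finset.sum_add_distrib, add_div]
  rw [h3] at h1
  exact tendsto_nhds_unique h2 h1

lemma abs_glim_le {f : ℕ → ℝ} {C : ℝ} (hf : ∀ n, |f n| ≤ C) : |glim f| ≤ C := by
  apply le_of_tendsto (tendsto_glim hf).abs
  exact Eventually.of_forall fun N => abs_ces_le hf N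

lemma glim_eq_zero {f : ℕ → ℝ} (h0 : Tendsto f atTop (𝓝 0)) {C : ℝ} (hf : ∀ n, |f n| ≤ C) :
    glim f = 0 := by
  have h1 := tendsto_glim hf
  have h2 : Tendsto (ces f) atTop (𝓝 0) := by
    have h3 := h0.cesaro
    have h4 := h3.comp (tendsto_add_atTop_nat 1)
    refine h4.congr ?_
    intro N
    unfold ces
    simp only [Function.comp_apply]
    push_cast
    rw [div_eq_inv_mul]
  have h3 : Tendsto (ces f) (hyperfilter ℕ : Filter ℕ) (𝓝 0) :=
    h2.mono_left Nat.hyperfilter_le_atTop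
  exact tendsto_nhds_unique h1 h3

lemma le_glim_of_telescope {f u : ℕ → ℝ} {C : ℝ} (hf : ∀ n, |f n| ≤ C)
    (hu : ∀ n, f n = u (n + 1) - u n) {c D : ℝ} (hc : ∀ n : ℕ, c * n - D ≤ u n) :
    c ≤ glim f := by
  have h1 := tendsto_glim hf
  have hsum : ∀ N, ∑ k ∈ Finset.range (N + 1), f k = u (N + 1) - u 0 := by
    intro N
    rw [Finset.sum_congr rfl fun k _ => hu k, Finset.sum_range_sub]
  have h2 : ∀ N : ℕ, c - (D + u 0) / ((N : ℝ) + 1) ≤ ces f N := by
    intro N
    unfold ces
    rw [hsum, le_div_iff₀ (by positivity), sub_mul, div_mul_cancel₀ _ (by positivity)]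
    have := hc (N + 1)
    push_cast at this
    linarith
  have h3 : Tendsto (fun N : ℕ => c - (D + u 0) / ((N : ℝ) + 1)) atTop (𝓝 (c - 0)) := by
    apply Tendsto.const_sub
    exact tendsto_const_div_atTop_nhds_zero_nat _ |>.comp (tendsto_add_atTop_nat 1) |>.congr
      (fun N => by simp only [Function.comp_apply]; push_cast; rfl)
  rw [sub_zero] at h3
  exact le_of_tendsto_of_tendsto' (h3.mono_left Nat.hyperfilter_le_atTop) h1 h2

lemma glim_congr {f g : ℕ → ℝ} (h : ∀ n, f n = g n) : glim f = glim g := by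
  have : f = g := funext h
  rw [this]

end ulim

section bolic

lemma bolic_aux {a b p q s u r η : ℝ} (ha : 0 ≤ a) (hb : 0 ≤ b) (hp : 0 ≤ p) (hqq : 0 ≤ q)
    (hη : 0 < η) (hr : a + b ≤ r) (hpq : |p - q| ≤ r)
    (hq : s ^ 2 + u ^ 2 ≤ a ^ 2 + q ^ 2 + b ^ 2 + p ^ 2)
    (hR : 2 * ((3 * r ^ 2 + 1) / η) ≤ p + q) : s + u ≤ p + q + η := by
  have hrn : 0 ≤ r := by linarith
  by_contra hcon
  push Not at hcon
  have h1 : (s + u) ^ 2 ≤ (p + q) ^ 2 + (p - q) ^ 2 + 2 * (a ^ 2 + b ^ 2) := by
    nlinarith [sq_nonneg (s - u)]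
  have h2 : (p - q) ^ 2 ≤ r ^ 2 := by
    rw [← sq_abs]
    exact pow_le_pow_left₀ (abs_nonneg _) hpq 2
  have h3 : a ^ 2 + b ^ 2 ≤ r ^ 2 := by
    have e1 : (a + b) ^ 2 ≤ r ^ 2 := pow_le_pow_left₀ (by linarith) hr 2
    nlinarith [mul_nonneg ha hb]
  have h6 : (3 * r ^ 2 + 1) * 2 ≤ (p + q) * η := by
    have h5 : (3 * r ^ 2 + 1) / η * 2 ≤ p + q := by linarith
    rw [div_mul_eq_mul_div, div_le_iff₀ hη] at h5
    linarith
  have h7 : (p + q + η) ^ 2 ≤ (s + u) ^ 2 := pow_le_pow_left₀ (by linarith) hcon.le 2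
  nlinarith [sq_nonneg η, sq_nonneg r]

lemma bolic_of_quadrilateral {X : Type*} [PseudoMetricSpace X] (hX : Quadrilateral X) :
    Bolic X := by
  intro η hη r
  refine ⟨2 * ((3 * r ^ 2 + 1) / η), ?_⟩
  intro x y z t hr hR
  -- diagonals `x t`, `y z`; sides `x y`, `y t`, `t z`, `z x`
  have hq := hX x y t z
  rw [dist_comm z x, dist_comm t z] at hq
  refine bolic_aux dist_nonneg dist_nonneg dist_nonneg dist_nonneg hη hr ?_ hq hR
  rw [abs_le]
  constructor
  · have h1 := dist_triangle4 y x z t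
    rw [dist_comm y x] at h1
    linarith
  · have h1 := dist_triangle4 x y t z
    rw [dist_comm t z] at h1
    linarith

variable {G : Type*} [Group G] {X : Type*} [PseudoMetricSpace X] [MulAction G X]
  [IsIsometricSMul G X]

lemma dist_isLength (o : X) : IsLength fun g : G => dist o (g • o) := by
  constructor
  · intro g h
    calc dist o ((g * h) • o) ≤ dist o (g • o) + dist (g • o) ((g * h) • o) := dist_triangle _ _ _
      _ = dist o (g • o) + dist o (h • o) := by rw [mul_smul, dist_smul]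
  · intro g
    rw [← dist_smul g o (g⁻¹ • o), smul_inv_smul, dist_comm]

/-- **Isometric actions on strongly bolic spaces.** If `G` acts by isometries on a metric space
satisfying (B1'), then every element with positive stable translation length is tame. -/
theorem tame_of_bolic (hX : Bolic X) {h : G} (o : X) {c : ℝ} (hc : 0 < c)
    (hh : ∀ n : ℕ, c * n ≤ dist o (h ^ n • o)) : Tame h := by
  classical
  -- the horofunction
  set f : G → ℕ → ℝ := fun z k => dist (z • o) ((h⁻¹) ^ k • o) - dist o ((h⁻¹) ^ k • o) with hf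
  have hbd : ∀ z k, |f z k| ≤ dist o (z • o) := by
    intro z k
    simp only [hf]
    rw [dist_comm o (z • o)]
    exact abs_dist_sub_le (z • o) o _
  have hinvdist : ∀ k : ℕ, dist o ((h⁻¹) ^ k • o) = dist o (h ^ k • o) := by
    intro k
    rw [← dist_smul (h ^ k) o ((h⁻¹) ^ k • o), smul_smul, inv_pow, mul_inv_cancel, one_smul,
      dist_comm]
  refine ⟨fun g => dist o (g • o), dist_isLength o, fun z => glim (f z), ?_, ?_, ?_⟩
  · intro z w hz hw
    -- f (z w) k = f z k + (error) + f w k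
    set d : ℕ → ℝ := fun k => f (z * w) k - f z k - f w k with hd
    have hsplit : ∀ k, f (z * w) k = (f z k + f w k) + d k := by
      intro k
      simp only [hd]
      ring
    have hdb : ∀ k, |d k| ≤ dist o ((z * w) • o) + dist o (z • o) + dist o (w • o) := by
      intro k
      simp only [hd]
      have h1 := abs_le.1 (hbd (z * w) k)
      have h2 := abs_le.1 (hbd z k)
      have h3 := abs_le.1 (hbd w k)
      rw [abs_le]
      constructor <;> linarith [h1.1, h1.2, h2.1, h2.2, h3.1, h3.2]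
    have hd' : ∀ k, d k = (dist (w • o) ((h⁻¹) ^ k • z⁻¹ • o) - dist o ((h⁻¹) ^ k • z⁻¹ • o)) -
        (dist (w • o) ((h⁻¹) ^ k • o) - dist o ((h⁻¹) ^ k • o)) := by
      intro k
      have hcomm : (h⁻¹) ^ k * z⁻¹ = z⁻¹ * (h⁻¹) ^ k :=
        ((hz.inv_inv).pow_right k).eq.symm
      have e1 : dist (w • o) ((h⁻¹) ^ k • z⁻¹ • o) = dist ((z * w) • o) ((h⁻¹) ^ k • o) := by
        rw [smul_smul, hcomm, ← dist_smul z, smul_smul, smul_smul, mul_inv_cancel_left]
      have e2 : dist o ((h⁻¹) ^ k • z⁻¹ • o) = dist (z • o) ((h⁻¹) ^ k • o) := by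
        rw [smul_smul, hcomm, ← dist_smul z, smul_smul, mul_inv_cancel_left]
      rw [e1, e2]
      simp only [hd, hf]
      ring
    have hd0 : Tendsto d atTop (𝓝 0) := by
      rw [Metric.tendsto_atTop]
      intro ε hε
      obtain ⟨R, hR⟩ := hX (ε / 2) (by positivity) (dist o (w • o) + dist o (z • o))
      obtain ⟨N, hN⟩ := exists_nat_gt ((R + dist o (z • o)) / c)
      refine ⟨N, ?_⟩
      intro k hk
      have hkc : R + dist o (z • o) ≤ dist o ((h⁻¹) ^ k • o) := by
        rw [hinvdist]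
        refine le_trans ?_ (hh k)
        rw [div_lt_iff₀ hc] at hN
        have : (N : ℝ) ≤ k := by exact_mod_cast hk
        nlinarith
      have hyy : dist ((h⁻¹) ^ k • o) ((h⁻¹) ^ k • z⁻¹ • o) = dist o (z • o) := by
        rw [dist_smul, ← dist_smul z, smul_inv_smul, dist_comm]
      have hzpos : 0 ≤ dist o (z • o) := dist_nonneg
      have hkc2 : R ≤ dist o ((h⁻¹) ^ k • z⁻¹ • o) := by
        have := dist_triangle o ((h⁻¹) ^ k • z⁻¹ • o) ((h⁻¹) ^ k • o)
        rw [dist_comm ((h⁻¹) ^ k • z⁻¹ • o), hyy] at this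
        linarith
      rw [Real.dist_eq, sub_zero, hd']
      -- apply bolicity twice
      have a1 := hR o (w • o) ((h⁻¹) ^ k • o) ((h⁻¹) ^ k • z⁻¹ • o) (by rw [hyy])
        (le_trans (by linarith) (le_add_of_nonneg_right dist_nonneg))
      have a2 := hR o (w • o) ((h⁻¹) ^ k • z⁻¹ • o) ((h⁻¹) ^ k • o)
        (by rw [dist_comm ((h⁻¹) ^ k • z⁻¹ • o), hyy])
        (hkc2.trans (le_add_of_nonneg_right dist_nonneg))
      rw [abs_lt]
      constructor <;> linarith
    have h1 : glim (f (z * w)) = glim (fun k => (f z k + f w k) + d k) := glim_congr hsplit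
    change glim (f (z * w)) = glim (f z) + glim (f w)
    rw [h1, glim_add (C := dist o (z • o) + dist o (w • o)) _ hdb,
      glim_add (hbd z) (hbd w), glim_eq_zero hd0 hdb, add_zero]
    intro k
    exact (abs_add_le _ _).trans (add_le_add (hbd z k) (hbd w k))
  · intro z _
    exact abs_glim_le (hbd z)
  · have h1 : c ≤ glim (f h) := by
      refine le_glim_of_telescope (hbd h) (u := fun k => dist o ((h⁻¹) ^ k • o)) (D := 0) ?_ ?_
      · intro k
        change dist (h • o) ((h⁻¹) ^ k • o) - dist o ((h⁻¹) ^ k • o) =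
          dist o ((h⁻¹) ^ (k + 1) • o) - dist o ((h⁻¹) ^ k • o)
        congr 1
        rw [← dist_smul h⁻¹, inv_smul_smul, smul_smul, ← pow_succ']
      · intro n
        rw [hinvdist, sub_zero]
        exact hh n
    have : 0 < glim (f h) := lt_of_lt_of_le hc h1
    exact this.ne'

end bolic

section amenable

variable {G : Type*} [Group G]

/-- **Undistorted elements with amenable centralizer are tame.** -/
theorem tame_of_amenable_centralizer {L : G → ℝ} (hL : IsLength L) {h : G} {c : ℝ} (hc : 0 < c)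
    (hh : ∀ n : ℕ, c * n ≤ L (h ^ n)) (ham : Amenable (Subgroup.centralizer {h})) : Tame h := by
  classical
  obtain ⟨Z, hZ⟩ : ∃ Z : Subgroup G, Z = Subgroup.centralizer ({h} : Set G) := ⟨_, rfl⟩
  rw [← hZ] at ham
  obtain ⟨m, hadd, hsmul, hpos, hone, hinv⟩ := ham
  have hmemZ : ∀ z : G, Commute z h → z ∈ Z := by
    intro z hz
    rw [hZ, Subgroup.mem_centralizer_singleton_iff]
    exact hz.eq
  have hmconst : ∀ a : ℝ, m (fun _ => a) = a := by
    intro a
    have := hsmul a (fun _ => 1) ⟨1, fun _ => by simp⟩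
    simpa [hone] using this
  have hmono : ∀ (f : Z → ℝ) (a : ℝ), (∃ C, ∀ z, |f z| ≤ C) → (∀ z, a ≤ f z) → a ≤ m f := by
    rintro f a ⟨C, hC⟩ ha
    have h1 := hpos (fun z => f z + (-a)) ⟨C + |a|, fun z =>
      (abs_add_le _ _).trans (add_le_add (hC z) (by rw [abs_neg]))⟩
      (fun z => by have := ha z; linarith)
    rw [hadd f (fun _ => -a) ⟨C, hC⟩ ⟨|a|, fun _ => by rw [abs_neg]⟩, hmconst] at h1
    linarith
  -- the function `F`
  set u : G → ℕ → ℝ := fun x k => L (x * h ^ k) - L (h ^ k) with hu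
  have hub : ∀ x k, |u x k| ≤ L x := by
    intro x k
    simp only [hu]
    rw [abs_le]
    constructor
    · have := hL.mul x⁻¹ (x * h ^ k)
      rw [inv_mul_cancel_left, hL.inv] at this
      linarith
    · have := hL.mul x (h ^ k)
      linarith
  have hdiff : ∀ x z : G, Commute z h →
      ∀ k, |L (x * z * h ^ k) - L (x * h ^ k)| ≤ L z := by
    intro x z hz k
    have e1 : x * z * h ^ k = x * h ^ k * z := by
      rw [mul_assoc, (hz.pow_right k).eq, ← mul_assoc]
    rw [e1, abs_le]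
    constructor
    · have := hL.mul (x * h ^ k * z) z⁻¹
      rw [mul_inv_cancel_right, hL.inv] at this
      linarith
    · have := hL.mul (x * h ^ k) z
      linarith
  have hF : ∀ x z : G, Commute z h →
      glim (u (x * z)) - glim (u x) = glim (fun k => L (x * z * h ^ k) - L (x * h ^ k)) := by
    intro x z hz
    have h1 := glim_add (hub x) (hdiff x z hz)
    have h2 : glim (u (x * z)) = glim fun k => u x k + (L (x * z * h ^ k) - L (x * h ^ k)) := by
      apply glim_congr
      intro k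
      simp only [hu]
      ring
    rw [h2, h1]
    ring
  have hFb : ∀ x z : G, Commute z h → |glim (u (x * z)) - glim (u x)| ≤ L z := by
    intro x z hz
    rw [hF x z hz]
    exact abs_glim_le (hdiff x z hz)
  set ρ : G → ℝ := fun z => m (fun w : Z => glim (u ((w : G) * z)) - glim (u (w : G))) with hρ
  refine ⟨L, hL, ρ, ?_, ?_, ?_⟩
  · intro z w hz hw
    have hb1 : ∃ C, ∀ x : Z, |glim (u ((x : G) * z)) - glim (u (x : G))| ≤ C :=
      ⟨L z, fun x => hFb x z hz⟩
    have hb2 : ∃ C, ∀ x : Z, |glim (u ((x : G) * w)) - glim (u (x : G))| ≤ C :=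
      ⟨L w, fun x => hFb x w hw⟩
    have hb3 : ∃ C, ∀ x : Z, |glim (u ((x : G) * z * w)) - glim (u ((x : G) * z))| ≤ C :=
      ⟨L w, fun x => hFb ((x : G) * z) w hw⟩
    have e1 : ρ (z * w) = m (fun x : Z => (glim (u ((x : G) * z * w)) - glim (u ((x : G) * z))) +
        (glim (u ((x : G) * z)) - glim (u (x : G)))) := by
      simp only [hρ]
      congr 1
      funext x
      rw [← mul_assoc]
      ring
    have e2 := hinv (fun x : Z => glim (u ((x : G) * w)) - glim (u (x : G))) ⟨z, hmemZ z hz⟩ hb2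
    rw [e1, hadd _ _ hb3 hb1]
    simp only [hρ]
    rw [← e2]
    simp only [Subgroup.coe_mul]
    ring
  · intro z hz
    have hb : ∃ C, ∀ x : Z, |glim (u ((x : G) * z)) - glim (u (x : G))| ≤ C :=
      ⟨L z, fun x => hFb x z hz⟩
    rw [abs_le]
    constructor
    · exact hmono _ _ hb fun x => (abs_le.1 (hFb x z hz)).1
    · have hneg : ∃ C, ∀ x : Z, |-1 * (glim (u ((x : G) * z)) - glim (u (x : G)))| ≤ C :=
        ⟨L z, fun x => by rw [abs_mul]; simpa using hFb x z hz⟩
      have h1 := hmono (fun x : Z => -1 * (glim (u ((x : G) * z)) - glim (u (x : G)))) (-L z)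
        hneg (fun x => by have := (abs_le.1 (hFb x z hz)).2; linarith)
      rw [hsmul (-1) _ hb] at h1
      linarith
  · have hb : ∃ C, ∀ x : Z, |glim (u ((x : G) * h)) - glim (u (x : G))| ≤ C :=
      ⟨L h, fun x => hFb x h (Commute.refl h)⟩
    have h1 : c ≤ ρ h := by
      apply hmono _ _ hb
      intro x
      rw [hF x h (Commute.refl h)]
      refine le_glim_of_telescope (hdiff x h (Commute.refl h)) (u := fun k => L ((x : G) * h ^ k))
        (D := L (x : G)) ?_ ?_
      · intro k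
        rw [mul_assoc, ← pow_succ']
      · intro n
        have h2 := hh n
        have h3 := hL.mul (x : G)⁻¹ ((x : G) * h ^ n)
        rw [inv_mul_cancel_left, hL.inv] at h3
        linarith
    have : 0 < ρ h := lt_of_lt_of_le hc h1
    exact this.ne'

end amenable

end Vale.Agent.P184
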