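import Vale.Agent.P184.LinearGroup
import Vale.Agent.P184.Commens
import Vale.Agent.P184.Mean

/-!
# Assembly
-/

set_option linter.unusedSectionVars false

namespace Vale.Agent.P184

section

variable {G : Type*} [Group G]

lemma LocallyTame.tame_of_fg {h : G} (ht : LocallyTame h) (hG : Group.FG G) : Tame h := by
  have h1 := ht ⊤ (Subgroup.mem_top h) hG.out
  apply Tame.comap (Subgroup.topEquiv.symm : G ≃* (⊤ : Subgroup G)).toMonoidHom
  exact h1

lemma exists_not_tame {q : ℕ} {e : Matrix (Fin q) (Fin q) (G → ℂ)} (he : IsL1Idempotent e)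
    {h : G} (hne : hsTrace e (ConjClasses.mk h) ≠ 0) :
    ∃ (H : Subgroup G) (hh : h ∈ H), H.FG ∧ ¬ Tame (⟨h, hh⟩ : H) := by
  by_contra hcon
  push Not at hcon
  exact hne (hsTrace_eq_zero hcon he)

theorem l1Bass_of_locallyTame (hG : ∀ h : G, ¬ IsOfFinOrder h → LocallyTame h)
    (hfin : {C : ConjClasses G | ∃ g ∈ C.carrier, IsOfFinOrder g}.Finite) : L1Bass G := by
  classical
  intro q e he
  refine ⟨hfin.toFinset, ?_, ?_⟩
  · intro C hC g hg
    rw [Set.Finite.mem_toFinset] at hC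
    obtain ⟨k, hk, hk'⟩ := hC
    rw [ConjClasses.mem_carrier_iff_mk_eq] at hg hk
    have h1 : IsConj k g := by
      rw [← ConjClasses.mk_eq_mk_iff_isConj, hg, hk]
    rw [isConj_iff] at h1
    obtain ⟨c, hc⟩ := h1
    rw [← hc]
    rw [isOfFinOrder_iff_pow_eq_one] at hk' ⊢
    obtain ⟨n, hn, hn'⟩ := hk'
    exact ⟨n, hn, by rw [conj_pow, hn']; simp⟩
  · intro C hC
    rw [Set.Finite.mem_toFinset] at hC
    obtain ⟨g, rfl⟩ := ConjClasses.mk_surjective C
    apply hsTrace_eq_zero _ he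
    apply hG
    intro hg
    exact hC ⟨g, ConjClasses.mem_carrier_mk, hg⟩

end

end Vale.Agent.P184
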