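import Mathlib

/-!
# The cocycle argument for idempotents over l1 group algebras

The purely algebraic core: finitely supported elements of `MonoidAlgebra R G`, where `R` is a
normed ring with a bounded trace, the trace `T` over a conjugation invariant set, and a bilinear
form `W` built from a function `w` with the two cocycle identities.
-/

namespace Vale.Agent.P184

open scoped BigOperators
open MonoidAlgebra

section algebra

variable {G : Type*} [Group G] {R : Type*} [NormedRing R]

/-- The sum of the traces of the coefficients over the set `S`. -/
noncomputable def T (S : Set G) (tr : R →+ ℂ) (x : MonoidAlgebra R G) : ℂ := by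
  classical
  exact x.coeff.sum fun g a => if g ∈ S then tr a else 0

/-- The bilinear form attached to a weight `w` on pairs with product in `S`. -/
noncomputable def W (S : Set G) (tr : R →+ ℂ) (w : G → G → ℝ) (x y : MonoidAlgebra R G) : ℂ := by
  classical
  exact x.coeff.sum fun g a => y.coeff.sum fun h b =>
    if g * h ∈ S then (w g h : ℂ) * tr (a * b) else 0

/-- Weighted norm. -/
noncomputable def nu (v : G → ℝ) (x : MonoidAlgebra R G) : ℝ :=
  x.coeff.sum fun g a => ‖a‖ * v g

variable (S : Set G) (tr : R →+ ℂ) (w : G → G → ℝ) (v : G → ℝ)

lemma T_zero : T S tr (0 : MonoidAlgebra R G) = 0 := by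
  simp [T]

lemma T_add (x y : MonoidAlgebra R G) : T S tr (x + y) = T S tr x + T S tr y := by
  classical
  unfold T
  rw [MonoidAlgebra.coeff_add]
  apply Finsupp.sum_add_index'
  · intro a; simp
  · intro a b c; split_ifs <;> simp

omit [Group G] in
lemma T_single (g : G) (a : R) : T S tr (single g a) = (by classical exact if g ∈ S then tr a else 0) := by
  classical
  unfold T
  rw [MonoidAlgebra.coeff_single, Finsupp.sum_single_index]
  simp

/-- `T` as an additive map. -/
noncomputable def Thom : MonoidAlgebra R G →+ ℂ where
  toFun := T S tr
  map_zero' := T_zero S tr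
  map_add' := T_add S tr

lemma T_sub (x y : MonoidAlgebra R G) : T S tr (x - y) = T S tr x - T S tr y :=
  (Thom S tr).map_sub x y

lemma W_zero_left (y : MonoidAlgebra R G) : W S tr w 0 y = 0 := by
  simp [W]

lemma W_zero_right (x : MonoidAlgebra R G) : W S tr w x 0 = 0 := by
  simp [W]

lemma W_add_left (x x' y : MonoidAlgebra R G) :
    W S tr w (x + x') y = W S tr w x y + W S tr w x' y := by
  classical
  unfold W
  rw [MonoidAlgebra.coeff_add]
  apply Finsupp.sum_add_index'
  · intro a; simp
  · intro a b c
    rw [← Finsupp.sum_add]
    apply Finsupp.sum_congr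
    intro h _
    split_ifs
    · rw [add_mul, map_add]; ring
    · simp

lemma W_add_right (x y y' : MonoidAlgebra R G) :
    W S tr w x (y + y') = W S tr w x y + W S tr w x y' := by
  classical
  unfold W
  rw [← Finsupp.sum_add]
  apply Finsupp.sum_congr
  intro g _
  rw [MonoidAlgebra.coeff_add]
  apply Finsupp.sum_add_index'
  · intro a; simp
  · intro a b c
    split_ifs
    · rw [mul_add, map_add]; ring
    · simp

lemma W_single (g h : G) (a b : R) :
    W S tr w (single g a) (single h b) =
      (by classical exact if g * h ∈ S then (w g h : ℂ) * tr (a * b) else 0) := by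
  classical
  unfold W
  rw [MonoidAlgebra.coeff_single, Finsupp.sum_single_index, MonoidAlgebra.coeff_single,
    Finsupp.sum_single_index]
  · simp
  · simp

variable {S tr w v}

/-- First cocycle identity. -/
lemma W_symm (hS : ∀ g h : G, g * h ∈ S ↔ h * g ∈ S) (htr : ∀ a b : R, tr (a * b) = tr (b * a))
    (hw : ∀ g h, g * h ∈ S → w g h + w h g = 1) (x y : MonoidAlgebra R G) :
    W S tr w x y + W S tr w y x = T S tr (x * y) := by
  classical
  induction x using MonoidAlgebra.induction_linear with
  | zero => simp [W_zero_left, W_zero_right, T_zero]
  | add x x' hx hx' =>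
    rw [W_add_left, W_add_right, add_mul, T_add, ← hx, ← hx']; ring
  | single g a =>
    induction y using MonoidAlgebra.induction_linear with
    | zero => simp [W_zero_left, W_zero_right, T_zero]
    | add y y' hy hy' =>
      rw [W_add_left, W_add_right, mul_add, T_add, ← hy, ← hy']; ring
    | single h b =>
      rw [W_single, W_single, MonoidAlgebra.single_mul_single, T_single]
      by_cases hgh : g * h ∈ S
      · have hhg : h * g ∈ S := (hS g h).1 hgh
        simp only [hgh, hhg, if_true]
        rw [htr b a, ← add_mul, ← Complex.ofReal_add, hw g h hgh]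
        simp
      · have hhg : h * g ∉ S := fun h' => hgh ((hS g h).2 h')
        simp only [hgh, hhg, if_false]
        simp

/-- Second cocycle identity. -/
lemma W_cocycle (hS : ∀ g h : G, g * h ∈ S ↔ h * g ∈ S) (htr : ∀ a b : R, tr (a * b) = tr (b * a))
    (hw : ∀ g h k, g * h * k ∈ S → w (g * h) k - w g (h * k) + w (k * g) h = 1)
    (x y z : MonoidAlgebra R G) :
    W S tr w (x * y) z - W S tr w x (y * z) + W S tr w (z * x) y = T S tr (x * y * z) := by
  classical
  induction x using MonoidAlgebra.induction_linear with
  | zero => simp [W_zero_left, T_zero]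
  | add x x' hx hx' =>
    have : T S tr ((x + x') * y * z) = T S tr (x * y * z) + T S tr (x' * y * z) := by
      rw [add_mul, add_mul, T_add]
    rw [this, ← hx, ← hx', add_mul, mul_add, W_add_left, W_add_left, W_add_left]
    ring
  | single g a =>
    induction y using MonoidAlgebra.induction_linear with
    | zero => simp [W_zero_left, W_zero_right, T_zero]
    | add y y' hy hy' =>
      have : T S tr (single g a * (y + y') * z) =
          T S tr (single g a * y * z) + T S tr (single g a * y' * z) := by
        rw [mul_add, add_mul, T_add]
      rw [this, ← hy, ← hy', mul_add, add_mul, W_add_left, W_add_right, W_add_right]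
      ring
    | single h b =>
      induction z using MonoidAlgebra.induction_linear with
      | zero => simp [W_zero_left, W_zero_right, T_zero]
      | add z z' hz hz' =>
        have : T S tr (single g a * single h b * (z + z')) =
            T S tr (single g a * single h b * z) + T S tr (single g a * single h b * z') := by
          rw [mul_add, T_add]
        rw [this, ← hz, ← hz', mul_add, add_mul, W_add_left, W_add_right, W_add_right]
        ring
      | single k c =>
        simp only [MonoidAlgebra.single_mul_single]
        rw [W_single, W_single, W_single, T_single]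
        have e1 : g * (h * k) = g * h * k := (mul_assoc _ _ _).symm
        have e2 : (k * g * h ∈ S) ↔ (g * h * k ∈ S) := by
          rw [mul_assoc, hS k (g * h)]
        by_cases hghk : g * h * k ∈ S
        · have h2 := e2.2 hghk
          simp only [e1, hghk, h2, if_true]
          have t1 : tr (a * (b * c)) = tr (a * b * c) := by rw [mul_assoc]
          have t2 : tr (c * a * b) = tr (a * b * c) := by rw [mul_assoc, htr c (a * b)]
          rw [t1, t2, ← sub_mul, ← add_mul, ← Complex.ofReal_sub, ← Complex.ofReal_add,
            hw g h k hghk]
          simp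
        · have h2 : ¬ (k * g * h ∈ S) := fun h' => hghk (e2.1 h')
          simp only [e1, hghk, h2, if_false]
          simp

/-- The key algebraic consequence. -/
lemma key_identity (hS : ∀ g h : G, g * h ∈ S ↔ h * g ∈ S)
    (htr : ∀ a b : R, tr (a * b) = tr (b * a))
    (hw1 : ∀ g h, g * h ∈ S → w g h + w h g = 1)
    (hw2 : ∀ g h k, g * h * k ∈ S → w (g * h) k - w g (h * k) + w (k * g) h = 1)
    (a : MonoidAlgebra R G) :
    T S tr a = 6 * W S tr w (a * a - a) a - 4 * T S tr (a * (a * a - a) + (a * a - a))
      + 3 * T S tr (a * a - a) := by
  have h1 := W_symm hS htr hw1 a a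
  have h2 := W_symm hS htr hw1 (a * a) a
  have h3 := W_cocycle hS htr hw2 a a a
  have h4 : W S tr w (a * a - a) a = W S tr w (a * a) a - W S tr w a a := by
    have := W_add_left S tr w (a * a - a) a a
    rw [sub_add_cancel] at this
    rw [this]; ring
  have e1 : T S tr (a * (a * a - a) + (a * a - a)) = T S tr (a * a * a) - T S tr a := by
    have : a * (a * a - a) + (a * a - a) = a * a * a - a := by noncomm_ring
    rw [this, T_sub]
  rw [h4, e1, T_sub]
  linear_combination 3 * h1 - 2 * h2 - 2 * h3

end algebra

end Vale.Agent.P184
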