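import Mathlib

/-!
# Idempotent matrices over the Banach algebra `l1(G)` and their Hattori-Stallings traces
-/

namespace Vale.Agent.P184

open scoped BigOperators

/-- The convolution product of two functions on `G`:
`(a * b)(g) = ∑_{h ∈ G} a(h) b(h⁻¹ g)`. -/
noncomputable def conv {G : Type*} [Group G] (a b : G → ℂ) : G → ℂ :=
  fun g => ∑' h : G, a h * b (h⁻¹ * g)

/-- A `q × q` matrix of functions on `G` is an idempotent matrix over `l1(G)`: all entries are
absolutely summable and the matrix equals its square with respect to convolution. -/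
structure IsL1Idempotent {G : Type*} [Group G] {q : ℕ}
    (e : Matrix (Fin q) (Fin q) (G → ℂ)) : Prop where
  summable : ∀ i j, Summable fun g => ‖e i j g‖
  idem : ∀ i j, ∑ k, conv (e i k) (e k j) = e i j

/-- The coefficient at the conjugacy class `C` of the Hattori-Stallings trace of `e`:
the sum over `g ∈ C` of `∑ i, e_ii(g)`. -/
noncomputable def hsTrace {G : Type*} [Group G] {q : ℕ}
    (e : Matrix (Fin q) (Fin q) (G → ℂ)) (C : ConjClasses G) : ℂ :=
  ∑' g : C.carrier, ∑ i, e i i g

/-- The statement of the `l1`-Bass conjecture for the group `G`. -/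
def L1Bass (G : Type*) [Group G] : Prop :=
  ∀ (q : ℕ) (e : Matrix (Fin q) (Fin q) (G → ℂ)), IsL1Idempotent e →
    ∃ F : Finset (ConjClasses G), (∀ C ∈ F, ∀ g ∈ C.carrier, IsOfFinOrder g) ∧
      ∀ C, C ∉ F → hsTrace e C = 0

/-- A length function: subadditive and symmetric. -/
structure IsLength {G : Type*} [Group G] (L : G → ℝ) : Prop where
  mul : ∀ g h, L (g * h) ≤ L g + L h
  inv : ∀ g, L g⁻¹ = L g

/-- `h` is tame: there is a length function `L` on the group and a function `ρ` that is additive
on the centralizer of `h`, dominated there by `L`, with `ρ h ≠ 0`. -/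
def Tame {G : Type*} [Group G] (h : G) : Prop :=
  ∃ L : G → ℝ, IsLength L ∧ ∃ ρ : G → ℝ,
    (∀ z w, Commute z h → Commute w h → ρ (z * w) = ρ z + ρ w) ∧
    (∀ z, Commute z h → |ρ z| ≤ L z) ∧ ρ h ≠ 0

/-- The strong bolicity condition (B1') of Lafforgue. -/
def Bolic (X : Type*) [PseudoMetricSpace X] : Prop :=
  ∀ η : ℝ, 0 < η → ∀ r : ℝ, ∃ R : ℝ, ∀ x y z t : X, dist x y + dist z t ≤ r →
    R ≤ dist x z + dist y t → dist x t + dist y z ≤ dist x z + dist y t + η

/-- The quadrilateral inequality, valid in all CAT(0) spaces. -/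
def Quadrilateral (X : Type*) [PseudoMetricSpace X] : Prop :=
  ∀ a b c d : X, dist a c ^ 2 + dist b d ^ 2 ≤
    dist a b ^ 2 + dist b c ^ 2 + dist c d ^ 2 + dist d a ^ 2

/-- The set of points `y` such that exactly one of `y` and `g • y` lies in `M`. -/
def moved {G : Type*} [Group G] {Y : Type*} [MulAction G Y] (M : Set Y) (g : G) : Set Y :=
  {y | ¬ (y ∈ M ↔ g • y ∈ M)}

/-- A group is amenable if there is an invariant mean on the bounded real functions on it. -/
def Amenable (Z : Type*) [Group Z] : Prop :=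
  ∃ m : (Z → ℝ) → ℝ,
    (∀ f g : Z → ℝ, (∃ C, ∀ z, |f z| ≤ C) → (∃ C, ∀ z, |g z| ≤ C) →
      m (fun z => f z + g z) = m f + m g) ∧
    (∀ (a : ℝ) (f : Z → ℝ), (∃ C, ∀ z, |f z| ≤ C) → m (fun z => a * f z) = a * m f) ∧
    (∀ f : Z → ℝ, (∃ C, ∀ z, |f z| ≤ C) → (∀ z, 0 ≤ f z) → 0 ≤ m f) ∧
    m (fun _ => 1) = 1 ∧
    (∀ (f : Z → ℝ) (w : Z), (∃ C, ∀ z, |f z| ≤ C) → m (fun z => f (z * w)) = m f)

universe u v

/-- In every finite dimensional representation over a field, all eigenvalues of `h` are roots of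
unity. -/
def QuasiUnipotent {H : Type u} [Group H] (h : H) : Prop :=
  ∀ (K : Type v) [Field K] (n : ℕ) (M : H →* GL (Fin n) K) (lam : AlgebraicClosure K),
    ((M h : Matrix (Fin n) (Fin n) K).charpoly.map (algebraMap K (AlgebraicClosure K))).IsRoot
      lam → ∃ k : ℕ, 0 < k ∧ lam ^ k = 1

/-- In every finite dimensional representation over a field of positive characteristic, `h` has
finite order. -/
def PosCharTorsion {H : Type u} [Group H] (h : H) : Prop :=
  ∀ (K : Type v) [Field K] (n : ℕ) (M : H →* GL (Fin n) K), ringChar K ≠ 0 →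
    IsOfFinOrder (M h)

/-- In every isometric action on a strongly bolic space, `h` has stable length zero. -/
def BolicNeutral {H : Type u} [Group H] (h : H) : Prop :=
  ∀ (X : Type v) [PseudoMetricSpace X] [MulAction H X] [IsIsometricSMul H X], Bolic X →
    ∀ (o : X) (c : ℝ), 0 < c → ∃ n : ℕ, dist o (h ^ n • o) < c * n

/-- In every action commensurating a subset `M`, the powers of `h` move boundedly many points in
or out of `M`. -/
def CommensBounded {H : Type u} [Group H] (h : H) : Prop :=
  ∀ (Y : Type v) [MulAction H Y] (M : Set Y), (∀ g : H, (moved M g).Finite) →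
    ∃ C : ℕ, ∀ n : ℕ, (moved M (h ^ n)).ncard ≤ C

/-- For every length function, the stable length of `h` vanishes. -/
def Distorted {H : Type u} [Group H] (h : H) : Prop :=
  ∀ L : H → ℝ, IsLength L → ∀ c : ℝ, 0 < c → ∃ n : ℕ, L (h ^ n) < c * n

end Vale.Agent.P184
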