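import Vale.Agent.P184.Vanish
import Vale.Agent.P184.Defs

/-!
# From homomorphisms on centralizers to cocycles
-/

set_option linter.unusedSectionVars false

namespace Vale.Agent.P184

section criterion

variable {G : Type*} [Group G]

lemma IsLength.nonneg {L : G → ℝ} (hL : IsLength L) (g : G) : 0 ≤ L g := by
  have h1 := hL.mul 1 1
  have h2 := hL.mul g g⁻¹
  rw [hL.inv, mul_inv_cancel] at h2
  rw [mul_one] at h1
  linarith

/-- `ρ` is additive on the centralizer of `s`, dominated by `L`, and normalised at `s`. -/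
structure GoodHom (L : G → ℝ) (s : G) (ρ : G → ℝ) : Prop where
  mul : ∀ z w, Commute z s → Commute w s → ρ (z * w) = ρ z + ρ w
  le : ∀ z, Commute z s → |ρ z| ≤ L z
  one : ρ s = 1

lemma exists_ell {L : G → ℝ} (hL : IsLength L) {s : G} {ρ : G → ℝ} (hρ : GoodHom L s ρ) :
    ∃ l : G → ℝ, (∀ z x, Commute z s → l (z * x) = ρ z + l x) ∧
      ∀ x g, |l (x * g) - l x| ≤ L g := by
  classical
  set A : G → {z : G // Commute z s} → ℝ := fun x z => ρ z.1 + L (z.1⁻¹ * x) with hA
  have hbdd : ∀ x, BddBelow (Set.range (A x)) := by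
    intro x
    refine ⟨-L x, ?_⟩
    rintro _ ⟨z, rfl⟩
    simp only [hA]
    have h1 := hρ.le z.1 z.2
    have h2 := hL.mul (z.1⁻¹ * x) x⁻¹
    rw [mul_assoc, mul_inv_cancel, mul_one, hL.inv, hL.inv] at h2
    have h3 := (abs_le.1 h1).1
    linarith
  have : Nonempty {z : G // Commute z s} := ⟨⟨1, Commute.one_left s⟩⟩
  set l : G → ℝ := fun x => ⨅ z, A x z with hl
  have hle : ∀ x (z : {z : G // Commute z s}), l x ≤ ρ z.1 + L (z.1⁻¹ * x) := fun x z =>
    ciInf_le (hbdd x) z
  have heq1 : ∀ z x, Commute z s → l (z * x) ≤ ρ z + l x := by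
    intro w x hw
    have : l (w * x) - ρ w ≤ l x := by
      apply le_ciInf
      intro z
      simp only [hA]
      have h1 := hle (w * x) ⟨w * z.1, hw.mul_left z.2⟩
      simp only at h1
      rw [hρ.mul w z.1 hw z.2] at h1
      have h2 : (w * z.1)⁻¹ * (w * x) = z.1⁻¹ * x := by group
      rw [h2] at h1
      linarith
    linarith
  have hρ1 : ρ 1 = 0 := by
    have := hρ.mul 1 1 (Commute.one_left s) (Commute.one_left s)
    rw [mul_one] at this
    linarith
  have hlip1 : ∀ x g, l (x * g) ≤ l x + L g := by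
    intro x g
    have : l (x * g) - L g ≤ l x := by
      apply le_ciInf
      intro z
      simp only [hA]
      have h1 := hle (x * g) z
      have h2 := hL.mul (z.1⁻¹ * x) g
      rw [mul_assoc] at h2
      linarith
    linarith
  refine ⟨l, ?_, ?_⟩
  · intro z x hz
    apply le_antisymm (heq1 z x hz)
    have hzi : Commute z⁻¹ s := hz.inv_left
    have h1 := heq1 z⁻¹ (z * x) hzi
    rw [inv_mul_cancel_left] at h1
    have h2 := hρ.mul z z⁻¹ hz hzi
    rw [mul_inv_cancel, hρ1] at h2
    linarith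
  · intro x g
    rw [abs_le]
    constructor
    · have h1 := hlip1 (x * g) g⁻¹
      rw [mul_inv_cancel_right, hL.inv] at h1
      linarith
    · have := hlip1 x g
      linarith

/-- Homomorphisms on centralizers of all elements of `S`, dominated by a common length function,
give cocycle data. -/
theorem cocycle_of_goodHom {L : G → ℝ} (hL : IsLength L) {S : Set G}
    (hS : ∀ g h : G, g * h ∈ S ↔ h * g ∈ S)
    (hρ : ∀ s ∈ S, ∃ ρ : G → ℝ, GoodHom L s ρ) : ∃ w : G → G → ℝ, Cocycle S L w := by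
  classical
  -- representatives of conjugacy classes
  set rep : G → G := fun g => Quotient.out (ConjClasses.mk g : ConjClasses G) with hrep
  have hrep_conj : ∀ g, ∃ r : G, r * rep g * r⁻¹ = g := by
    intro g
    have h1 : ConjClasses.mk (rep g) = ConjClasses.mk g := Quotient.out_eq (s := IsConj.setoid G) _
    rw [ConjClasses.mk_eq_mk_iff_isConj, isConj_iff] at h1
    exact h1
  choose r hr using hrep_conj
  have hrep_eq : ∀ g h : G, rep (g * h) = rep (h * g) := by
    intro g h
    have : (ConjClasses.mk (g * h) : ConjClasses G) = ConjClasses.mk (h * g) := by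
      rw [ConjClasses.mk_eq_mk_iff_isConj, isConj_iff]
      exact ⟨h, by group⟩
    simp only [hrep, this]
  have hrepS : ∀ g, g ∈ S → rep g ∈ S := by
    intro g hg
    have h1 := hr g
    have h2 : (r g) * (rep g * (r g)⁻¹) ∈ S := by
      rw [← mul_assoc, h1]; exact hg
    rw [hS] at h2
    simpa using h2
  have hell : ∀ s, s ∈ S → ∃ l : G → ℝ, (∀ x, l (s * x) = 1 + l x) ∧
      (∀ z x y, Commute z s → l (z * x) - l (z * y) = l x - l y) ∧
      ∀ x g, |l (x * g) - l x| ≤ L g := by
    intro s hs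
    obtain ⟨ρ, hρs⟩ := hρ s hs
    obtain ⟨l, h1, h2⟩ := exists_ell hL hρs
    refine ⟨l, ?_, ?_, h2⟩
    · intro x
      rw [h1 s x (Commute.refl s), hρs.one]
    · intro z x y hz
      rw [h1 z x hz, h1 z y hz]; ring
  choose! l hl1 hl2 hl3 using hell
  set w : G → G → ℝ := fun g h =>
    l (rep (g * h)) ((r (g * h))⁻¹ * g) - l (rep (g * h)) ((r (g * h))⁻¹) with hw
  -- independence of the choice of conjugator
  have hind : ∀ g h k : G, g * h ∈ S → k * rep (g * h) * k⁻¹ = g * h →
      w g h = l (rep (g * h)) (k⁻¹ * g) - l (rep (g * h)) k⁻¹ := by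
    intro g h k hgh hk
    have hs := hrepS _ hgh
    have hr' := hr (g * h)
    set s := rep (g * h) with hs'
    set ρ := r (g * h) with hρ'
    -- z = ρ⁻¹ k commutes with s
    have hcomm : Commute (ρ⁻¹ * k) s := by
      have : ρ * s * ρ⁻¹ = k * s * k⁻¹ := by rw [hr', hk]
      have h2 : s = ρ⁻¹ * (k * s * k⁻¹) * ρ := by rw [← this]; group
      change ρ⁻¹ * k * s = s * (ρ⁻¹ * k)
      conv_rhs => rw [h2]
      group
    have h1 := hl2 s hs (ρ⁻¹ * k) (k⁻¹ * g) k⁻¹ hcomm
    have e1 : ρ⁻¹ * k * (k⁻¹ * g) = ρ⁻¹ * g := by group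
    have e2 : ρ⁻¹ * k * k⁻¹ = ρ⁻¹ := by group
    rw [e1, e2] at h1
    simp only [hw]
    rw [← hs', ← hρ']
    exact h1
  refine ⟨w, hL.nonneg, hL.mul, ?_, ?_, ?_⟩
  · intro g h hgh
    have hhg : h * g ∈ S := (hS g h).1 hgh
    have hrep' : rep (h * g) = rep (g * h) := hrep_eq h g
    have hs := hrepS _ hgh
    have hr' := hr (g * h)
    set k := r (g * h) with hk
    have h1 := hind g h k hgh hr'
    have h2 := hind h g (g⁻¹ * k) hhg (by
      rw [hrep']
      calc g⁻¹ * k * rep (g * h) * (g⁻¹ * k)⁻¹ = g⁻¹ * (k * rep (g * h) * k⁻¹) * g := by group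
        _ = h * g := by rw [hr']; group)
    rw [h1, h2, hrep']
    have e1 : (g⁻¹ * k)⁻¹ * h = rep (g * h) * k⁻¹ := by
      have h3 : rep (g * h) = k⁻¹ * (g * h) * k := by
        calc rep (g * h) = k⁻¹ * (k * rep (g * h) * k⁻¹) * k := by group
          _ = k⁻¹ * (g * h) * k := by rw [hr']
      rw [h3]; group
    have e2 : (g⁻¹ * k)⁻¹ = k⁻¹ * g := by group
    rw [e1, e2, hl1 _ hs]
    ring
  · intro g h k hghk
    have hs := hrepS _ hghk
    have hr' := hr (g * h * k)
    set c := r (g * h * k) with hc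
    set s := rep (g * h * k) with hs'
    have hA : g * (h * k) ∈ S := by rw [← mul_assoc]; exact hghk
    have hB : k * g * h ∈ S := by rw [mul_assoc, hS k (g * h)]; exact hghk
    have hrA : rep (g * (h * k)) = s := by rw [← mul_assoc]
    have hrB : rep (k * g * h) = s := by rw [mul_assoc, hrep_eq k (g * h)]
    have h1 := hind (g * h) k c hghk hr'
    have h2 := hind g (h * k) c hA (by rw [hrA, hr', mul_assoc])
    have h3 := hind (k * g) h (k * c) hB (by
      rw [hrB]
      calc k * c * s * (k * c)⁻¹ = k * (c * s * c⁻¹) * k⁻¹ := by group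
        _ = k * g * h := by rw [hr']; group)
    rw [h1, h2, h3, hrA, hrB]
    have e1 : (k * c)⁻¹ * (k * g) = c⁻¹ * g := by group
    have e2 : c⁻¹ * (g * h) = s * (k * c)⁻¹ := by
      have h4 : s = c⁻¹ * (g * h * k) * c := by
        calc s = c⁻¹ * (c * s * c⁻¹) * c := by group
          _ = c⁻¹ * (g * h * k) * c := by rw [hr']
      rw [h4]; group
    rw [e1, e2, hl1 _ hs]
    ring
  · intro g h hgh
    exact hl3 _ (hrepS _ hgh) _ _

end criterion

end Vale.Agent.P184
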