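import Mathlib

/-!
# Absolute values with `|λ| ≠ 1`, and specialisation of finitely generated linear groups
-/

set_option linter.unusedSectionVars false

namespace Vale.Agent.P184

open scoped BigOperators

section transc

/-- A transcendental element has an absolute value different from one for some absolute value of
the field it generates. -/
theorem exists_abs_transcendental (F₀ : Type*) [Field F₀] {E₀ : Type*} [Field E₀] [Algebra F₀ E₀]
    (lam : E₀) (h : Transcendental F₀ lam) :
    ∃ v : AbsoluteValue (IntermediateField.adjoin F₀ {lam}) ℝ,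
      v (IntermediateField.AdjoinSimple.gen F₀ lam) ≠ 1 := by
  classical
  let P : IsDedekindDomain.HeightOneSpectrum (Polynomial F₀) :=
    { asIdeal := Ideal.span {Polynomial.X}
      isPrime := (Ideal.span_singleton_prime Polynomial.X_ne_zero).2 Polynomial.prime_X
      ne_bot := by
        intro hbot
        rw [Ideal.span_singleton_eq_bot] at hbot
        exact Polynomial.X_ne_zero hbot }
  let a : AbsoluteValue (RatFunc F₀) ℝ := P.adicAbv (b := 2) one_lt_two
  have ha : a (RatFunc.X) < 1 := by
    have h1 : (RatFunc.X : RatFunc F₀) = algebraMap (Polynomial F₀) (RatFunc F₀) Polynomial.X :=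
      RatFunc.algebraMap_X.symm
    rw [h1]
    exact (P.adicAbv_coe_lt_one_iff one_lt_two _).2 (Ideal.subset_span rfl)
  let φ : IntermediateField.adjoin F₀ {lam} →+* RatFunc F₀ :=
    ((RatFunc.algEquivOfTranscendental lam h).symm : _ →+* RatFunc F₀)
  refine ⟨a.comp (f := φ) φ.injective, ?_⟩
  have h2 : φ (IntermediateField.AdjoinSimple.gen F₀ lam) = RatFunc.X :=
    RatFunc.algEquivOfTranscendental_symm_gen lam h
  have h3 : (a.comp (f := φ) φ.injective) (IntermediateField.AdjoinSimple.gen F₀ lam) =
      a (φ (IntermediateField.AdjoinSimple.gen F₀ lam)) := rfl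
  rw [h3, h2]
  exact ha.ne

end transc

section numberfield

/-- A nonzero element of a number field which is not a root of unity has an absolute value
different from one. -/
theorem exists_abs_numberField (K : Type*) [Field K] [NumberField K] (lam : K)
    (h : ∀ k : ℕ, 0 < k → lam ^ k ≠ 1) : ∃ v : AbsoluteValue K ℝ, v lam ≠ 1 := by
  classical
  by_contra hcon
  push Not at hcon
  have hint : IsIntegral ℤ lam := by
    have h1 : lam ∈ (algebraMap (NumberField.RingOfIntegers K) K).range := by
      apply IsDedekindDomain.HeightOneSpectrum.mem_integers_of_valuation_le_one K lam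
      intro P
      have h2 := hcon (P.adicAbv (b := 2) one_lt_two)
      have h3 : (P.adicAbvDef (b := 2) one_lt_two lam : ℝ) = 1 := h2
      have h4 : P.adicAbvDef (b := 2) one_lt_two lam = 1 := by exact_mod_cast h3
      unfold IsDedekindDomain.HeightOneSpectrum.adicAbvDef at h4
      exact (WithZeroMulInt.toNNReal_le_one_iff one_lt_two).1 h4.le
    obtain ⟨y, hy⟩ := h1
    rw [← hy]
    exact y.isIntegral_coe
  obtain ⟨k, hk, hk1⟩ := NumberField.Embeddings.pow_eq_one_of_norm_eq_one K ℂ hint (fun φ => by
    have := hcon (NumberField.place φ)
    simpa [NumberField.place_apply] using this)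
  exact h k hk hk1

end numberfield

end Vale.Agent.P184
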