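import Vale.Agent.P184.Field

/-!
# Elements that are not roots of unity
-/

set_option linter.unusedSectionVars false
set_option linter.style.haveILetI false

namespace Vale.Agent.P184

open scoped BigOperators

/-- Every element of a field that is neither zero nor a root of unity lies in a subfield carrying
an absolute value which is different from one at this element. -/
theorem exists_subfield_abs (E : Type*) [Field E] (lam : E) (h0 : lam ≠ 0)
    (h : ∀ k : ℕ, 0 < k → lam ^ k ≠ 1) :
    ∃ (L : Subfield E) (l : L) (v : AbsoluteValue L ℝ), (l : E) = lam ∧ v l ≠ 1 := by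
  classical
  obtain ⟨p, hp⟩ := CharP.exists E
  rcases Nat.eq_zero_or_pos p with hp0 | hp0
  · subst hp0
    haveI : CharZero E := CharP.charP_to_charZero E
    by_cases halg : IsAlgebraic ℚ lam
    · haveI : FiniteDimensional ℚ (IntermediateField.adjoin ℚ {lam}) :=
        IntermediateField.adjoin.finiteDimensional halg.isIntegral
      haveI : NumberField (IntermediateField.adjoin ℚ {lam}) := { }
      obtain ⟨v, hv⟩ := exists_abs_numberField (IntermediateField.adjoin ℚ {lam})
        (IntermediateField.AdjoinSimple.gen ℚ lam) (by
          intro k hk hk1
          apply h k hk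
          have := congrArg (fun x : IntermediateField.adjoin ℚ {lam} => (x : E)) hk1
          simpa using this)
      exact ⟨(IntermediateField.adjoin ℚ {lam}).toSubfield,
        IntermediateField.AdjoinSimple.gen ℚ lam, v, rfl, hv⟩
    · obtain ⟨v, hv⟩ := exists_abs_transcendental ℚ lam halg
      exact ⟨(IntermediateField.adjoin ℚ {lam}).toSubfield,
        IntermediateField.AdjoinSimple.gen ℚ lam, v, rfl, hv⟩
  · haveI : NeZero p := ⟨hp0.ne'⟩
    haveI hprime : Fact p.Prime := CharP.char_is_prime_of_pos E p
    letI : Algebra (ZMod p) E := ZMod.algebra E p
    by_cases halg : IsAlgebraic (ZMod p) lam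
    · exfalso
      haveI : FiniteDimensional (ZMod p) (IntermediateField.adjoin (ZMod p) {lam}) :=
        IntermediateField.adjoin.finiteDimensional halg.isIntegral
      haveI : Finite (IntermediateField.adjoin (ZMod p) {lam}) :=
        Module.finite_of_finite (ZMod p)
      haveI : Fintype (IntermediateField.adjoin (ZMod p) {lam}) := Fintype.ofFinite _
      have h1 : (IntermediateField.AdjoinSimple.gen (ZMod p) lam) ≠ 0 := by
        intro h2
        apply h0
        have := congrArg (fun x : IntermediateField.adjoin (ZMod p) {lam} => (x : E)) h2
        simpa using this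
      have h3 := FiniteField.pow_card_sub_one_eq_one _ h1
      apply h (Fintype.card (IntermediateField.adjoin (ZMod p) {lam}) - 1)
      · have := Fintype.one_lt_card (α := IntermediateField.adjoin (ZMod p) {lam})
        omega
      · have := congrArg (fun x : IntermediateField.adjoin (ZMod p) {lam} => (x : E)) h3
        simpa using this
    · obtain ⟨v, hv⟩ := exists_abs_transcendental (ZMod p) lam halg
      exact ⟨(IntermediateField.adjoin (ZMod p) {lam}).toSubfield,
        IntermediateField.AdjoinSimple.gen (ZMod p) lam, v, rfl, hv⟩

end Vale.Agent.P184
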