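import Vale.Agent.P184.Norms

/-!
# The iteration: the trace of an almost idempotent is small
-/

set_option linter.unusedSectionVars false

namespace Vale.Agent.P184

open scoped BigOperators
open MonoidAlgebra

section iterate

variable {G : Type*} [Group G] {R : Type*} [NormedRing R]

/-- The iterates. -/
noncomputable def iter (b : MonoidAlgebra R G) (n : ℕ) : MonoidAlgebra R G := step^[n] b

lemma iter_succ (b : MonoidAlgebra R G) (n : ℕ) : iter b (n + 1) = step (iter b n) := by
  unfold iter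
  rw [Function.iterate_succ_apply']

lemma iter_bounds {L : G → ℝ} (hL : ∀ g, 0 ≤ L g) (hLmul : ∀ g h, L (g * h) ≤ L g + L h)
    {ε : ℝ} (hε : 0 < ε) (b : MonoidAlgebra R G) {κ : ℝ}
    (hκ : nu (fun g => 1 + ε * L g) (b * b - b) ≤ κ) (hκ1 : κ ≤ 1 / 14)
    (hκ2 : 2 * κ * (3 + 2 * nu (fun _ => 1) b) ≤ 1) (n : ℕ) :
    nu (fun g => 1 + ε * L g) (iter b n * iter b n - iter b n) ≤ κ / 2 ^ n ∧
    nu (fun _ => 1) (iter b n - b) ≤ 2 * κ * (3 + 2 * nu (fun _ => 1) b) * (1 - 1 / 2 ^ n) := by
  have hv : ∀ g, 0 ≤ (fun g => 1 + ε * L g) g := fun g => by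
    have := hL g
    positivity
  have hvm : ∀ g h, (fun g => 1 + ε * L g) (g * h) ≤
      (fun g => 1 + ε * L g) g * (fun g => 1 + ε * L g) h := by
    intro g h
    have h1 := hL g
    have h2 := hL h
    have h3 := hLmul g h
    have h4 : ε * L (g * h) ≤ ε * (L g + L h) := mul_le_mul_of_nonneg_left h3 hε.le
    have h5 : 0 ≤ (ε * L g) * (ε * L h) := by positivity
    dsimp only
    nlinarith
  have h1 : ∀ g : G, (0 : ℝ) ≤ (fun _ => 1) g := fun _ => zero_le_one
  have h1m : ∀ g h : G, (fun _ : G => (1 : ℝ)) (g * h) ≤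
      (fun _ : G => (1 : ℝ)) g * (fun _ : G => (1 : ℝ)) h := by
    intro g h; simp
  have hle : ∀ x : MonoidAlgebra R G, nu (fun _ => 1) x ≤ nu (fun g => 1 + ε * L g) x := by
    intro x
    apply nu_mono
    intro g
    have := hL g
    have : 0 ≤ ε * L g := by positivity
    linarith
  have hκ0 : 0 ≤ κ := (nu_nonneg hv _).trans hκ
  have hb0 : 0 ≤ nu (fun _ => 1) b := nu_nonneg h1 b
  set M := 3 + 2 * nu (fun _ => 1) b with hM
  have hM0 : 0 ≤ M := by positivity
  induction n with
  | zero =>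
    refine ⟨by simpa [iter] using hκ, ?_⟩
    simp [iter, nu_zero]
  | succ n ih =>
    obtain ⟨ih1, ih2⟩ := ih
    set a := iter b n with ha
    set y := a * a - a with hy
    have h2n : (0 : ℝ) < 1 / 2 ^ n := by positivity
    have h2n1 : (1 : ℝ) / 2 ^ n ≤ 1 := by
      rw [div_le_one (by positivity)]
      exact one_le_pow₀ (by norm_num)
    have hkn : κ / 2 ^ n = κ * (1 / 2 ^ n) := by ring
    have hkn0 : 0 ≤ κ / 2 ^ n := by positivity
    have hkn1 : κ / 2 ^ n ≤ 1 / 14 := by
      rw [hkn]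
      nlinarith
    have hy0 : 0 ≤ nu (fun g => 1 + ε * L g) y := nu_nonneg hv y
    constructor
    · rw [iter_succ, ← ha, step_defect, ← hy]
      have e1 : nu (fun g => 1 + ε * L g) (4 • (y * y * y)) ≤
          4 * (nu (fun g => 1 + ε * L g) y) ^ 3 := by
        refine (nu_nsmul_le hv 4 _).trans ?_
        push_cast
        apply mul_le_mul_of_nonneg_left _ (by norm_num)
        calc nu (fun g => 1 + ε * L g) (y * y * y)
            ≤ nu (fun g => 1 + ε * L g) (y * y) * nu (fun g => 1 + ε * L g) y :=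
              nu_mul_le hv hvm _ _
          _ ≤ (nu (fun g => 1 + ε * L g) y * nu (fun g => 1 + ε * L g) y)
                * nu (fun g => 1 + ε * L g) y :=
              mul_le_mul_of_nonneg_right (nu_mul_le hv hvm _ _) hy0
          _ = _ := by ring
      have e2 : nu (fun g => 1 + ε * L g) (3 • (y * y)) ≤
          3 * (nu (fun g => 1 + ε * L g) y) ^ 2 := by
        refine (nu_nsmul_le hv 3 _).trans ?_
        push_cast
        apply mul_le_mul_of_nonneg_left _ (by norm_num)
        calc nu (fun g => 1 + ε * L g) (y * y)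
            ≤ nu (fun g => 1 + ε * L g) y * nu (fun g => 1 + ε * L g) y :=
              nu_mul_le hv hvm _ _
          _ = _ := by ring
      refine (nu_sub_le hv _ _).trans ?_
      set k := κ / 2 ^ n with hk
      set t := nu (fun g => 1 + ε * L g) y with ht
      have htk : t ≤ k := ih1
      have ht2 : t ^ 2 ≤ k * t := by nlinarith
      have ht1 : t ≤ 1 / 14 := htk.trans hkn1
      have ht3 : t ^ 3 ≤ t ^ 2 := by
        have : 0 ≤ t ^ 2 * (1 - t) := by
          apply mul_nonneg (by positivity)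
          linarith
        nlinarith
      have e3 : 4 * t ^ 3 + 3 * t ^ 2 ≤ 7 * t ^ 2 := by linarith
      have e4 : 7 * t ^ 2 ≤ k / 2 := by
        have : t ^ 2 ≤ (1 / 14) * k := by nlinarith
        linarith
      have e5 : κ / 2 ^ (n + 1) = k / 2 := by
        rw [hk, pow_succ]; field_simp
      rw [e5]
      linarith
    · rw [iter_succ, ← ha]
      have e0 : step a - b = (step a - a) + (a - b) := by abel
      have e1 : nu (fun _ => 1) (step a - a) ≤ κ / 2 ^ n * M := by
        rw [step_sub, ← hy]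
        refine (nu_sub_le h1 _ _).trans ?_
        have f1 : nu (fun _ => 1) (2 • (y * a)) ≤ 2 * (nu (fun _ => 1) y * nu (fun _ => 1) a) := by
          refine (nu_nsmul_le h1 2 _).trans ?_
          push_cast
          exact mul_le_mul_of_nonneg_left (nu_mul_le h1 h1m _ _) (by norm_num)
        have f2 : nu (fun _ => 1) y ≤ κ / 2 ^ n := (hle y).trans ih1
        have f3 : nu (fun _ => 1) a ≤ nu (fun _ => 1) b + 1 := by
          have g1 : a = (a - b) + b := by abel
          have g2 : nu (fun _ => 1) a ≤ nu (fun _ => 1) (a - b) + nu (fun _ => 1) b := by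
            conv_lhs => rw [g1]
            exact nu_add_le h1 _ _
          have g3 : 2 * κ * M * (1 - 1 / 2 ^ n) ≤ 1 := by
            have : 0 ≤ 2 * κ * M := by positivity
            nlinarith
          linarith
        have f4 : 0 ≤ nu (fun _ => 1) y := nu_nonneg h1 y
        have f5 : 0 ≤ nu (fun _ => 1) a := nu_nonneg h1 a
        calc nu (fun _ => 1) y + nu (fun _ => 1) (2 • (y * a))
            ≤ nu (fun _ => 1) y + 2 * (nu (fun _ => 1) y * nu (fun _ => 1) a) := by linarith
          _ = nu (fun _ => 1) y * (1 + 2 * nu (fun _ => 1) a) := by ring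
          _ ≤ κ / 2 ^ n * (1 + 2 * (nu (fun _ => 1) b + 1)) := by
              apply mul_le_mul f2 _ (by positivity) hkn0
              linarith
          _ = κ / 2 ^ n * M := by rw [hM]; ring
      rw [e0]
      refine (nu_add_le h1 _ _).trans ?_
      have e6 : 2 * κ * M * (1 - 1 / 2 ^ (n + 1)) = 2 * κ * M * (1 - 1 / 2 ^ n) + κ / 2 ^ n * M := by
        rw [pow_succ]; field_simp; ring
      rw [e6]
      linarith

variable {S : Set G} {tr : R →+ ℂ} {w : G → G → ℝ} {L : G → ℝ} {c : ℝ}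

/-- The trace of an almost idempotent is small. -/
theorem T_bound (hS : ∀ g h : G, g * h ∈ S ↔ h * g ∈ S)
    (htr : ∀ a b : R, tr (a * b) = tr (b * a)) (hc : 0 ≤ c) (htrc : ∀ a, ‖tr a‖ ≤ c * ‖a‖)
    (hL : ∀ g, 0 ≤ L g) (hLmul : ∀ g h, L (g * h) ≤ L g + L h)
    (hw1 : ∀ g h, g * h ∈ S → w g h + w h g = 1)
    (hw2 : ∀ g h k, g * h * k ∈ S → w (g * h) k - w g (h * k) + w (k * g) h = 1)
    (hwL : ∀ g h, g * h ∈ S → |w g h| ≤ L g)
    {ε : ℝ} (hε : 0 < ε) (b : MonoidAlgebra R G) {κ : ℝ}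
    (hκ : nu (fun g => 1 + ε * L g) (b * b - b) ≤ κ) (hκ1 : κ ≤ 1 / 14)
    (hκ2 : 2 * κ * (3 + 2 * nu (fun _ => 1) b) ≤ 1) :
    ‖T S tr b‖ ≤ c * (2 * κ * (3 + 2 * nu (fun _ => 1) b)) := by
  have h1 : ∀ g : G, (0 : ℝ) ≤ (fun _ => 1) g := fun _ => zero_le_one
  have h1m : ∀ g h : G, (fun _ : G => (1 : ℝ)) (g * h) ≤
      (fun _ : G => (1 : ℝ)) g * (fun _ : G => (1 : ℝ)) h := by
    intro g h; simp
  have hv : ∀ g, 0 ≤ (fun g => 1 + ε * L g) g := fun g => by
    have := hL g
    positivity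
  have hκ0 : 0 ≤ κ := (nu_nonneg hv _).trans hκ
  have hb0 : 0 ≤ nu (fun _ => 1) b := nu_nonneg h1 b
  set M := 3 + 2 * nu (fun _ => 1) b with hM
  have hM0 : 0 ≤ M := by positivity
  set B := nu (fun _ => 1) b + 1 with hB
  have hB0 : 0 ≤ B := by positivity
  set K := c * (6 * (κ / ε) * B + 4 * (κ * B + κ) + 3 * κ) with hK
  have main : ∀ n : ℕ, ‖T S tr b‖ ≤ K * (1 / 2) ^ n + c * (2 * κ * M) := by
    intro n
    obtain ⟨i1, i2⟩ := iter_bounds hL hLmul hε b hκ hκ1 hκ2 n
    set a := iter b n with ha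
    set y := a * a - a with hy
    have h2n : (0 : ℝ) < (1 / 2) ^ n := by positivity
    have h2n1 : ((1 : ℝ) / 2) ^ n ≤ 1 := pow_le_one₀ (by norm_num) (by norm_num)
    have e2n : (1 : ℝ) / 2 ^ n = (1 / 2) ^ n := by rw [one_div_pow]
    have hkn : κ / 2 ^ n = κ * (1 / 2) ^ n := by rw [← e2n]; ring
    rw [hkn] at i1
    rw [e2n] at i2
    have hlin := nu_lin ε L y
    have hy1 : 0 ≤ nu (fun _ => 1) y := nu_nonneg h1 y
    have hyL : 0 ≤ nu L y := nu_nonneg hL y
    have j1 : nu (fun _ => 1) y ≤ κ * (1 / 2) ^ n := by nlinarith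
    have j2 : nu L y ≤ κ / ε * (1 / 2) ^ n := by
      have : ε * nu L y ≤ κ * (1 / 2) ^ n := by linarith
      rw [div_mul_eq_mul_div, le_div_iff₀ hε]
      linarith
    have j3' : nu (fun _ => 1) (a - b) ≤ 1 := by
      have : 0 ≤ 2 * κ * M := by positivity
      nlinarith
    have j3 : nu (fun _ => 1) (a - b) ≤ 2 * κ * M := by
      have : 0 ≤ 2 * κ * M := by positivity
      nlinarith
    have j4 : nu (fun _ => 1) a ≤ B := by
      have g1 : a = (a - b) + b := by abel
      have g2 : nu (fun _ => 1) a ≤ nu (fun _ => 1) (a - b) + nu (fun _ => 1) b := by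
        conv_lhs => rw [g1]
        exact nu_add_le h1 _ _
      linarith
    have j5 : 0 ≤ nu (fun _ => 1) a := nu_nonneg h1 a
    have k1 := key_identity hS htr hw1 hw2 a
    rw [← hy] at k1
    have k2 : ‖T S tr a‖ ≤ K * (1 / 2) ^ n := by
      rw [k1]
      have m1 : ‖6 * W S tr w y a‖ ≤ 6 * (c * (κ / ε * (1 / 2) ^ n) * B) := by
        rw [norm_mul]
        have : ‖(6 : ℂ)‖ = 6 := by simp
        rw [this]
        apply mul_le_mul_of_nonneg_left _ (by norm_num)
        refine (norm_W_le hc htrc hL hwL y a).trans ?_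
        apply mul_le_mul _ j4 j5 (by positivity)
        exact mul_le_mul_of_nonneg_left j2 hc
      have m2 : ‖4 * T S tr (a * y + y)‖ ≤ 4 * (c * (B * (κ * (1 / 2) ^ n) + κ * (1 / 2) ^ n)) := by
        rw [norm_mul]
        have : ‖(4 : ℂ)‖ = 4 := by simp
        rw [this]
        apply mul_le_mul_of_nonneg_left _ (by norm_num)
        refine (norm_T_le hc htrc _).trans ?_
        apply mul_le_mul_of_nonneg_left _ hc
        refine (nu_add_le h1 _ _).trans ?_
        have := nu_mul_le h1 h1m a y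
        have h' : nu (fun _ => 1) a * nu (fun _ => 1) y ≤ B * (κ * (1 / 2) ^ n) :=
          mul_le_mul j4 j1 hy1 hB0
        linarith
      have m3 : ‖3 * T S tr y‖ ≤ 3 * (c * (κ * (1 / 2) ^ n)) := by
        rw [norm_mul]
        have : ‖(3 : ℂ)‖ = 3 := by simp
        rw [this]
        apply mul_le_mul_of_nonneg_left _ (by norm_num)
        refine (norm_T_le hc htrc _).trans ?_
        exact mul_le_mul_of_nonneg_left j1 hc
      calc ‖6 * W S tr w y a - 4 * T S tr (a * y + y) + 3 * T S tr y‖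
          ≤ ‖6 * W S tr w y a‖ + ‖4 * T S tr (a * y + y)‖ + ‖3 * T S tr y‖ :=
            (norm_add_le _ _).trans (add_le_add_left (norm_sub_le _ _) _)
        _ ≤ 6 * (c * (κ / ε * (1 / 2) ^ n) * B) + 4 * (c * (B * (κ * (1 / 2) ^ n) + κ * (1 / 2) ^ n))
            + 3 * (c * (κ * (1 / 2) ^ n)) := by linarith
        _ = K * (1 / 2) ^ n := by rw [hK]; ring
    have k3 : T S tr b = T S tr a - T S tr (a - b) := by
      rw [T_sub]; ring
    rw [k3]
    refine (norm_sub_le _ _).trans ?_
    have k4 := norm_T_le (S := S) hc htrc (a - b)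
    have k5 : c * nu (fun _ => 1) (a - b) ≤ c * (2 * κ * M) := mul_le_mul_of_nonneg_left j3 hc
    linarith
  have hlim : Filter.Tendsto (fun n : ℕ => K * (1 / 2 : ℝ) ^ n + c * (2 * κ * M)) Filter.atTop
      (nhds (K * 0 + c * (2 * κ * M))) := by
    apply Filter.Tendsto.add_const
    apply Filter.Tendsto.const_mul
    exact tendsto_pow_atTop_nhds_zero_of_lt_one (by norm_num) (by norm_num)
  have := ge_of_tendsto' hlim main
  simpa using this

end iterate

end Vale.Agent.P184
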