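import Vale.Agent.P184.Main

/-!
# Tame elements and the local criterion
-/

set_option linter.unusedSectionVars false

namespace Vale.Agent.P184

open scoped BigOperators

section tame

/-- `h` is tame in every finitely generated subgroup that contains it. -/
def LocallyTame {G : Type*} [Group G] (h : G) : Prop :=
  ∀ (H : Subgroup G) (hh : h ∈ H), H.FG → Tame (⟨h, hh⟩ : H)

variable {G : Type*} [Group G]

lemma IsLength.smul {L : G → ℝ} (hL : IsLength L) {c : ℝ} (hc : 0 ≤ c) :
    IsLength fun g => c * L g where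
  mul g h := by
    have := mul_le_mul_of_nonneg_left (hL.mul g h) hc
    linarith
  inv g := by rw [hL.inv]

lemma IsLength.sum {ι : Type*} (s : Finset ι) {L : ι → G → ℝ} (hL : ∀ i ∈ s, IsLength (L i)) :
    IsLength fun g => ∑ i ∈ s, L i g where
  mul g h := by
    rw [← Finset.sum_add_distrib]
    exact Finset.sum_le_sum fun i hi => (hL i hi).mul g h
  inv g := Finset.sum_congr rfl fun i hi => (hL i hi).inv g

lemma IsLength.comap {Q : Type*} [Group Q] {L : Q → ℝ} (hL : IsLength L) (f : G →* Q) :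
    IsLength fun g => L (f g) where
  mul g h := by rw [map_mul]; exact hL.mul _ _
  inv g := by rw [map_inv, hL.inv]

lemma Tame.comap {Q : Type*} [Group Q] (f : G →* Q) {h : G} (ht : Tame (f h)) : Tame h := by
  obtain ⟨L, hL, ρ, h1, h2, h3⟩ := ht
  refine ⟨fun g => L (f g), hL.comap f, fun g => ρ (f g), ?_, ?_, h3⟩
  · intro z w hz hw
    simp only [map_mul]
    exact h1 _ _ (hz.map f) (hw.map f)
  · intro z hz
    exact h2 _ (hz.map f)

lemma Tame.goodHom {h : G} (ht : Tame h) :
    ∃ L : G → ℝ, IsLength L ∧ ∃ ρ : G → ℝ, GoodHom L h ρ := by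
  obtain ⟨L, hL, ρ, h1, h2, h3⟩ := ht
  refine ⟨fun g => |ρ h|⁻¹ * L g, hL.smul (by positivity), fun g => (ρ h)⁻¹ * ρ g, ?_⟩
  refine ⟨?_, ?_, ?_⟩
  · intro z w hz hw
    rw [h1 z w hz hw]; ring
  · intro z hz
    rw [abs_mul, abs_inv]
    exact mul_le_mul_of_nonneg_left (h2 z hz) (by positivity)
  · exact inv_mul_cancel₀ h3

lemma GoodHom.pow {L : G → ℝ} {s : G} {ρ : G → ℝ} (hρ : GoodHom L s ρ) {z : G}
    (hz : Commute z s) (n : ℕ) : ρ (z ^ n) = n * ρ z := by
  induction n with
  | zero =>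
    have := hρ.mul 1 1 (Commute.one_left s) (Commute.one_left s)
    rw [mul_one] at this
    simp only [pow_zero, Nat.cast_zero, zero_mul]
    linarith
  | succ n ih =>
    rw [pow_succ, hρ.mul _ _ (hz.pow_left n) hz, ih]
    push_cast
    ring

lemma IsLength.pow_le {L : G → ℝ} (hL : IsLength L) (z : G) (n : ℕ) :
    L (z ^ (n + 1)) ≤ (n + 1) * L z := by
  induction n with
  | zero => simp
  | succ n ih =>
    rw [pow_succ]
    refine (hL.mul _ _).trans ?_
    push_cast
    linarith

lemma GoodHom.conj {L : G → ℝ} (hL : IsLength L) {s : G} {ρ : G → ℝ} (hρ : GoodHom L s ρ)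
    (x : G) : GoodHom L (x * s * x⁻¹) (fun z => ρ (x⁻¹ * z * x)) := by
  have hcomm : ∀ z, Commute z (x * s * x⁻¹) → Commute (x⁻¹ * z * x) s := by
    intro z hz
    have h1 : z * (x * s * x⁻¹) = (x * s * x⁻¹) * z := hz
    change x⁻¹ * z * x * s = s * (x⁻¹ * z * x)
    calc x⁻¹ * z * x * s = x⁻¹ * (z * (x * s * x⁻¹)) * x := by group
      _ = x⁻¹ * ((x * s * x⁻¹) * z) * x := by rw [h1]
      _ = s * (x⁻¹ * z * x) := by group
  refine ⟨?_, ?_, ?_⟩
  · intro z w hz hw
    have : x⁻¹ * (z * w) * x = (x⁻¹ * z * x) * (x⁻¹ * w * x) := by group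
    simp only [this]
    exact hρ.mul _ _ (hcomm z hz) (hcomm w hw)
  · intro z hz
    have hz' := hcomm z hz
    have key : ∀ n : ℕ, ((n : ℝ) + 1) * |ρ (x⁻¹ * z * x)| ≤
        ((n : ℝ) + 1) * L z + 2 * L x := by
      intro n
      have h1 := hρ.le ((x⁻¹ * z * x) ^ (n + 1)) (hz'.pow_left _)
      rw [hρ.pow hz', abs_mul] at h1
      have h2 : (x⁻¹ * z * x) ^ (n + 1) = x⁻¹ * z ^ (n + 1) * x := by
        have := conj_pow (i := n + 1) (a := x⁻¹) (b := z)
        simpa using this
      rw [h2] at h1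
      have h3 := hL.mul (x⁻¹ * z ^ (n + 1)) x
      have h4 := hL.mul x⁻¹ (z ^ (n + 1))
      rw [hL.inv] at h4
      have h5 := hL.pow_le z n
      have h6 : |((n + 1 : ℕ) : ℝ)| = (n : ℝ) + 1 := by
        rw [abs_of_nonneg (by positivity)]; push_cast; ring
      rw [h6] at h1
      linarith
    by_contra hlt
    push Not at hlt
    obtain ⟨n, hn⟩ := exists_nat_gt (2 * L x / (|ρ (x⁻¹ * z * x)| - L z))
    rw [div_lt_iff₀ (by linarith)] at hn
    have := key n
    nlinarith
  · have : x⁻¹ * (x * s * x⁻¹) * x = s := by group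
    simp only [this]
    exact hρ.one

/-- The local criterion: the conjugacy class of a locally tame element is killed. -/
theorem killed_of_locallyTame {h : G} (hh : LocallyTame h) :
    Killed (ConjClasses.mk h).carrier := by
  classical
  intro F
  set H : Subgroup G := Subgroup.closure (F : Set G) with hH
  have hFH : ∀ g ∈ F, g ∈ H := fun g hg => Subgroup.subset_closure hg
  have hHfg : H.FG := ⟨F, rfl⟩
  -- the elements of `F` in the class of `h` are tame in `H`
  have htame : ∀ s : H, (s : G) ∈ (ConjClasses.mk h).carrier → Tame s := by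
    intro s hs
    rw [ConjClasses.mem_carrier_iff_mk_eq, ConjClasses.mk_eq_mk_iff_isConj, isConj_comm,
      isConj_iff] at hs
    obtain ⟨x, hx⟩ := hs
    set K : Subgroup G := H.map (MulAut.conj x⁻¹).toMonoidHom with hK
    have hKfg : K.FG := by
      refine ⟨F.image (MulAut.conj x⁻¹).toMonoidHom, ?_⟩
      rw [Finset.coe_image, hK, hH, MonoidHom.map_closure]
    have hhK : h ∈ K := by
      refine ⟨s.1, s.2, ?_⟩
      simp only [MulEquiv.toMonoidHom_eq_coe, MonoidHom.coe_coe, MulAut.conj_apply, inv_inv]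
      rw [← hx]
      group
    have h1 := hh K hhK hKfg
    let f : H →* K :=
      { toFun := fun y => ⟨x⁻¹ * y.1 * x, ⟨y.1, y.2, by simp⟩⟩
        map_one' := by
          apply Subtype.ext
          simp
        map_mul' := fun a b => by
          apply Subtype.ext
          simp only [Subgroup.coe_mul]
          group }
    apply Tame.comap f
    have : f s = ⟨h, hhK⟩ := by
      apply Subtype.ext
      change x⁻¹ * s.1 * x = h
      rw [← hx]
      group
    rw [this]
    exact h1
  -- the finite set of relevant elements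
  set F' : Finset H := F.attach.image (fun g => (⟨g.1, hFH g.1 g.2⟩ : H)) with hF'
  have hmemF' : ∀ x : H, x ∈ F' ↔ (x : G) ∈ F := by
    intro x
    simp only [hF', Finset.mem_image, Finset.mem_attach, true_and, Subtype.exists]
    constructor
    · rintro ⟨a, ha, hax⟩
      rw [← hax]
      exact ha
    · intro hx
      exact ⟨x.1, hx, rfl⟩
  set F'' : Finset H := F'.filter (fun x => (x : G) ∈ (ConjClasses.mk h).carrier) with hF''
  set S₀ : Set H := {x : H | ∃ s ∈ F'', ∃ c : H, c * s * c⁻¹ = x} with hS₀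
  have hgood : ∀ s ∈ F'', ∃ L : H → ℝ, IsLength L ∧ ∃ ρ : H → ℝ, GoodHom L s ρ := by
    intro s hs
    rw [hF'', Finset.mem_filter] at hs
    exact (htame s hs.2).goodHom
  choose! L hL hρ using hgood
  have hLsum : IsLength fun g => ∑ s ∈ F'', L s g := IsLength.sum F'' hL
  have hS₀' : ∀ g k : H, g * k ∈ S₀ ↔ k * g ∈ S₀ := by
    have : ∀ g k : H, g * k ∈ S₀ → k * g ∈ S₀ := by
      rintro g k ⟨s, hs, c, hc⟩
      refine ⟨s, hs, k * c, ?_⟩
      calc k * c * s * (k * c)⁻¹ = k * (c * s * c⁻¹) * k⁻¹ := by group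
        _ = k * g := by rw [hc]; group
    exact fun g k => ⟨this g k, this k g⟩
  refine ⟨H, hFH, S₀, ?_, hS₀', fun g => ∑ s ∈ F'', L s g, ?_⟩
  · intro x hx
    constructor
    · rintro ⟨s, hs, c, hc⟩
      rw [hF'', Finset.mem_filter] at hs
      have h1 := hs.2
      rw [ConjClasses.mem_carrier_iff_mk_eq] at h1 ⊢
      rw [← h1, ConjClasses.mk_eq_mk_iff_isConj, isConj_comm, isConj_iff]
      exact ⟨c, by rw [← hc]; push_cast; rfl⟩
    · intro hx'
      refine ⟨x, ?_, 1, by simp⟩
      rw [hF'', Finset.mem_filter]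
      exact ⟨(hmemF' x).2 hx, hx'⟩
  · apply cocycle_of_goodHom hLsum hS₀'
    rintro x ⟨s, hs, c, hc⟩
    obtain ⟨ρ, hρs⟩ := hρ s hs
    have h1 := hρs.conj (hL s hs) c
    rw [hc] at h1
    refine ⟨fun z => ρ (c⁻¹ * z * c), ⟨h1.mul, ?_, h1.one⟩⟩
    intro z hz
    refine (h1.le z hz).trans ?_
    exact Finset.single_le_sum (f := fun s => L s z) (fun t ht => (hL t ht).nonneg z) hs

/-- The trace coefficient of an `l1` idempotent matrix at the class of a locally tame element
vanishes. -/
theorem hsTrace_eq_zero {h : G} (hh : LocallyTame h) {q : ℕ}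
    {e : Matrix (Fin q) (Fin q) (G → ℂ)} (he : IsL1Idempotent e) :
    hsTrace e (ConjClasses.mk h) = 0 :=
  hsTrace_eq_zero_of_killed he _ (killed_of_locallyTame hh)

lemma Tame.locallyTame {h : G} (ht : Tame h) : LocallyTame h := by
  intro H hh _
  exact Tame.comap H.subtype ht

end tame

end Vale.Agent.P184
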