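import Mathlib

/-!
# Specialisation of finitely generated linear groups over a subfield
-/

set_option linter.unusedSectionVars false
set_option linter.style.haveILetI false

namespace Vale.Agent.P184

open scoped BigOperators

section special

variable {E : Type*} [Field E] {n : ℕ} {H : Type*} [Group H]

/-- Restriction of scalars for the matrix action. -/
noncomputable def resMat (L : Type*) [Field L] (E' : Type*) [Field E'] [Algebra L E']
    [FiniteDimensional L E'] (n : ℕ) :
    Matrix (Fin n) (Fin n) E' →*
      Matrix (Fin (Module.finrank L (Fin n → E'))) (Fin (Module.finrank L (Fin n → E'))) L where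
  toFun A := LinearMap.toMatrixAlgEquiv (Module.finBasis L (Fin n → E'))
    ((Matrix.toLin' A).restrictScalars L)
  map_one' := by
    rw [Matrix.toLin'_one]
    exact map_one (LinearMap.toMatrixAlgEquiv (Module.finBasis L (Fin n → E')))
  map_mul' A B := by
    rw [← map_mul, Matrix.toLin'_mul]
    rfl

lemma resMat_eigen (L : Type*) [Field L] (E' : Type*) [Field E'] [Algebra L E']
    [FiniteDimensional L E'] (n : ℕ) (A : Matrix (Fin n) (Fin n) E') (l : L)
    (h : ∃ v : Fin n → E', v ≠ 0 ∧ A.mulVec v = algebraMap L E' l • v) :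
    ∃ v : Fin (Module.finrank L (Fin n → E')) → L, v ≠ 0 ∧ (resMat L E' n A).mulVec v = l • v := by
  obtain ⟨v, hv0, hv⟩ := h
  set b := Module.finBasis L (Fin n → E') with hb
  refine ⟨b.equivFun v, ?_, ?_⟩
  · intro h
    apply hv0
    exact (b.equivFun.map_eq_zero_iff).1 h
  · have h1 : (resMat L E' n A).mulVec (b.equivFun v) =
        b.equivFun (((Matrix.toLin' A).restrictScalars L) v) := by
      change (LinearMap.toMatrix b b ((Matrix.toLin' A).restrictScalars L)).mulVec (b.repr v) = _
      rw [LinearMap.toMatrix_mulVec_repr]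
      rfl
    rw [h1]
    have h2 : ((Matrix.toLin' A).restrictScalars L) v = l • v := by
      change A.mulVec v = l • v
      rw [hv, algebraMap_smul]
    rw [h2, map_smul]

lemma finrank_fun_pos (L : Type*) [Field L] (E' : Type*) [Field E'] [Algebra L E']
    [FiniteDimensional L E'] (n : ℕ) [NeZero n] : 0 < Module.finrank L (Fin n → E') := by
  haveI : Nontrivial (Fin n → E') := Pi.nontrivial
  exact Module.finrank_pos

/-- Specialisation: a finitely generated linear group over a field `E`, together with an element
`l` of a subfield `L`, has a finite dimensional representation over `L` in which every element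
for which `l` was an eigenvalue still has the eigenvalue `l`. -/
theorem specialise (L : Type*) [Field L] [Algebra L E] [NeZero n]
    (M : H →* Matrix (Fin n) (Fin n) E) (F : Finset H) (hF : Subgroup.closure (F : Set H) = ⊤)
    (l : L) :
    ∃ (N : ℕ) (_ : NeZero N) (M' : H →* Matrix (Fin N) (Fin N) L),
      ∀ s : H, (∃ v : Fin n → E, v ≠ 0 ∧ (M s).mulVec v = algebraMap L E l • v) →
        ∃ v : Fin N → L, v ≠ 0 ∧ (M' s).mulVec v = l • v := by
  classical
  -- the coefficient ring
  set S : Finset E := (F ×ˢ (Finset.univ : Finset (Fin n × Fin n))).image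
      (fun p => M p.1 p.2.1 p.2.2) ∪
    (F ×ˢ (Finset.univ : Finset (Fin n × Fin n))).image
      (fun p => M p.1⁻¹ p.2.1 p.2.2) with hS
  set B : Subalgebra L E := Algebra.adjoin L (S : Set E) with hB
  have hBF : Algebra.FiniteType L B :=
    Subalgebra.fg_iff_finiteType B |>.1 (Subalgebra.fg_adjoin_finset S)
  have hmemM : ∀ (A A' : Matrix (Fin n) (Fin n) E), (∀ i j, A i j ∈ B) → (∀ i j, A' i j ∈ B) →
      ∀ i j, (A * A') i j ∈ B := by
    intro A A' hA hA' i j
    rw [Matrix.mul_apply]
    exact Subalgebra.sum_mem _ fun k _ => B.mul_mem (hA i k) (hA' k j)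
  have hmem : ∀ h : H, (∀ i j, M h i j ∈ B) ∧ (∀ i j, M h⁻¹ i j ∈ B) := by
    intro h
    have hh : h ∈ Subgroup.closure (F : Set H) := by rw [hF]; trivial
    induction hh using Subgroup.closure_induction with
    | mem x hx =>
      constructor
      · intro i j
        apply Algebra.subset_adjoin
        simp only [hS, Finset.coe_union, Set.mem_union, Finset.mem_coe]
        left
        exact Finset.mem_image.2 ⟨(x, (i, j)), Finset.mem_product.2 ⟨hx, Finset.mem_univ _⟩, rfl⟩
      · intro i j
        apply Algebra.subset_adjoin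
        simp only [hS, Finset.coe_union, Set.mem_union, Finset.mem_coe]
        right
        exact Finset.mem_image.2 ⟨(x, (i, j)), Finset.mem_product.2 ⟨hx, Finset.mem_univ _⟩, rfl⟩
    | one =>
      have h1 : ∀ i j, (1 : Matrix (Fin n) (Fin n) E) i j ∈ B := by
        intro i j
        rw [Matrix.one_apply]
        split_ifs
        · exact B.one_mem
        · exact B.zero_mem
      rw [inv_one, map_one]
      exact ⟨h1, h1⟩
    | mul x y _ _ hx hy =>
      rw [mul_inv_rev, map_mul, map_mul]
      exact ⟨hmemM _ _ hx.1 hy.1, hmemM _ _ hy.2 hx.2⟩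
    | inv x _ hx =>
      rw [inv_inv]
      exact ⟨hx.2, hx.1⟩
  -- the representation over the coefficient ring
  set MB : H →* Matrix (Fin n) (Fin n) B :=
    { toFun := fun h => Matrix.of fun i j => ⟨M h i j, (hmem h).1 i j⟩
      map_one' := by
        ext i j
        simp only [map_one, Matrix.of_apply, Matrix.one_apply]
        split_ifs <;> rfl
      map_mul' := by
        intro x y
        ext i j
        simp [Matrix.mul_apply] } with hMB
  have hMBval : ∀ h, (MB h).map B.val = M h := by
    intro h
    ext i j
    rfl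
  -- a finite residue field
  obtain ⟨m, hm⟩ := Ideal.exists_maximal B
  letI : Field (B ⧸ m) := Ideal.Quotient.field m
  haveI : Algebra.FiniteType L (B ⧸ m) :=
    Algebra.FiniteType.of_surjective (Ideal.Quotient.mkₐ L m) (Ideal.Quotient.mkₐ_surjective L m)
  haveI : FiniteDimensional L (B ⧸ m) := finite_of_finite_type_of_isJacobsonRing L (B ⧸ m)
  set q : B →+* (B ⧸ m) := Ideal.Quotient.mk m with hq
  set ME : H →* Matrix (Fin n) (Fin n) (B ⧸ m) :=
    (RingHom.mapMatrix q).toMonoidHom.comp MB with hME
  have hfin : 0 < Module.finrank L (Fin n → (B ⧸ m)) := finrank_fun_pos L (B ⧸ m) n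
  refine ⟨Module.finrank L (Fin n → (B ⧸ m)), ⟨hfin.ne'⟩, (resMat L (B ⧸ m) n).comp ME, ?_⟩
  intro s hs
  apply resMat_eigen
  -- the determinant vanishes
  obtain ⟨v, hv0, hv⟩ := hs
  have hdetE : (M s - Matrix.diagonal (fun _ => algebraMap L E l)).det = 0 := by
    rw [← Matrix.exists_mulVec_eq_zero_iff]
    refine ⟨v, hv0, ?_⟩
    rw [Matrix.sub_mulVec, hv]
    ext i
    simp [Matrix.mulVec_diagonal]
  have hdetB : (MB s - Matrix.diagonal (fun _ => algebraMap L B l)).det = 0 := by
    have h1 : B.val.toRingHom (MB s - Matrix.diagonal (fun _ => algebraMap L B l)).det = 0 := by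
      rw [RingHom.map_det, map_sub]
      have e1 : B.val.toRingHom.mapMatrix (MB s) = M s := hMBval s
      have e2 : B.val.toRingHom.mapMatrix (Matrix.diagonal (fun _ : Fin n => algebraMap L B l)) =
          Matrix.diagonal (fun _ => algebraMap L E l) := by
        rw [RingHom.mapMatrix_apply, Matrix.diagonal_map (map_zero _)]
        rfl
      rw [e1, e2, hdetE]
    exact (map_eq_zero_iff B.val.toRingHom Subtype.val_injective).1 h1
  have hdetQ : (ME s - Matrix.diagonal (fun _ => algebraMap L (B ⧸ m) l)).det = 0 := by
    have h1 := congrArg q hdetB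
    rw [RingHom.map_det, map_sub, map_zero] at h1
    have e2 : q.mapMatrix (Matrix.diagonal (fun _ : Fin n => algebraMap L B l)) =
        Matrix.diagonal (fun _ => algebraMap L (B ⧸ m) l) := by
      rw [RingHom.mapMatrix_apply, Matrix.diagonal_map (map_zero _)]
      rfl
    rw [e2] at h1
    exact h1
  obtain ⟨w, hw0, hw⟩ := Matrix.exists_mulVec_eq_zero_iff.2 hdetQ
  refine ⟨w, hw0, ?_⟩
  rw [Matrix.sub_mulVec, sub_eq_zero] at hw
  rw [hw]
  ext i
  simp [Matrix.mulVec_diagonal]

end special

end Vale.Agent.P184
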