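import Vale.Agent.P184.Linear
import Vale.Agent.P184.Local
import Vale.Agent.P184.Field2
import Vale.Agent.P184.Special

/-!
# Linear groups: the classes with an eigenvalue that is not a root of unity are killed
-/

set_option linter.unusedSectionVars false
set_option linter.style.haveILetI false

namespace Vale.Agent.P184

open scoped BigOperators

section

variable {G : Type*} [Group G] {E : Type*} [Field E] {n : ℕ}

lemma goodHom_of_fg {H : Type*} [Group H] [NeZero n] (M : H →* Matrix (Fin n) (Fin n) E)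
    (F : Finset H) (hF : Subgroup.closure (F : Set H) = ⊤) (lam : E) (h0 : lam ≠ 0)
    (hlam : ∀ k : ℕ, 0 < k → lam ^ k ≠ 1) :
    ∃ L : H → ℝ, IsLength L ∧ ∀ s : H, (∃ v : Fin n → E, v ≠ 0 ∧ (M s).mulVec v = lam • v) →
      ∃ ρ : H → ℝ, GoodHom L s ρ := by
  classical
  obtain ⟨K, l, v, hl, hv⟩ := exists_subfield_abs E lam h0 hlam
  obtain ⟨N, hN, M', hM'⟩ := specialise K M F hF l
  set σ : K →+* WithAbs v := ((WithAbs.equiv v).symm : K →+* WithAbs v) with hσ
  set M'' : H →* Matrix (Fin N) (Fin N) (WithAbs v) :=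
    (RingHom.mapMatrix σ).toMonoidHom.comp M' with hM''
  have hnorm : ‖σ l‖ = v l := WithAbs.norm_eq_apply_ofAbs v (σ l)
  have hl0 : l ≠ 0 := by
    intro h
    apply h0
    rw [← hl, h]
    rfl
  have hlog : Real.log ‖σ l‖ ≠ 0 := by
    rw [hnorm]
    have h1 : 0 < v l := v.pos hl0
    exact Real.log_ne_zero_of_pos_of_ne_one h1 hv
  refine ⟨linLength M'' (1 / |Real.log ‖σ l‖|), linLength_isLength M'' (by positivity), ?_⟩
  intro s hs
  have h1 := hM' s (by
    obtain ⟨w, hw0, hw⟩ := hs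
    refine ⟨w, hw0, ?_⟩
    rw [hw, ← hl]
    rfl)
  apply linear_goodHom M'' s (σ l) hlog
  obtain ⟨w, hw0, hw⟩ := h1
  refine ⟨σ ∘ w, ?_, ?_⟩
  · intro h
    apply hw0
    funext i
    have := congrFun h i
    simp only [Function.comp_apply, Pi.zero_apply] at this
    exact (map_eq_zero σ).1 this
  · have h2 : (M'' s).mulVec (σ ∘ w) = σ ∘ ((M' s).mulVec w) := by
      funext i
      rw [Function.comp_apply, RingHom.map_mulVec]
      rfl
    rw [h2, hw]
    funext i
    simp

/-- In a linear group, an element with an eigenvalue that is not a root of unity is locally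
tame. -/
theorem locallyTame_of_eigenvector (M : G →* Matrix (Fin n) (Fin n) E) (lam : E)
    (hlam : ∀ k : ℕ, 0 < k → lam ^ k ≠ 1) {h : G}
    (hev : ∃ v : Fin n → E, v ≠ 0 ∧ (M h).mulVec v = lam • v) : LocallyTame h := by
  classical
  have hn : NeZero n := by
    constructor
    rintro rfl
    obtain ⟨v, hv, _⟩ := hev
    exact hv (Subsingleton.elim _ _)
  have h0 : lam ≠ 0 := by
    rintro rfl
    obtain ⟨v, hv, hv2⟩ := hev
    rw [zero_smul] at hv2
    apply hv
    have h1 : (M h⁻¹ * M h).mulVec v = v := by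
      rw [← map_mul, inv_mul_cancel, map_one, Matrix.one_mulVec]
    rw [← h1, ← Matrix.mulVec_mulVec, hv2, Matrix.mulVec_zero]
  intro H hh hfg
  obtain ⟨F, hF⟩ := (Group.fg_iff_subgroup_fg H).2 hfg
  obtain ⟨L, hL, hgood⟩ := goodHom_of_fg (M.comp H.subtype) F hF lam h0 hlam
  obtain ⟨ρ, hρ⟩ := hgood ⟨h, hh⟩ hev
  exact ⟨L, hL, ρ, hρ.mul, hρ.le, by rw [hρ.one]; exact one_ne_zero⟩

end

end Vale.Agent.P184
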