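import Vale.Agent.P184.Iterate

/-!
# Vanishing of the trace of an l1 idempotent
-/

set_option linter.unusedSectionVars false

namespace Vale.Agent.P184

open scoped BigOperators
open MonoidAlgebra

section L1

variable {G : Type*} [Group G] {R : Type*} [NormedRing R]

/-- The finitely supported truncation of a function. -/
noncomputable def trunc (e : G → R) (F : Finset G) : MonoidAlgebra R G :=
  ∑ g ∈ F, single g (e g)

lemma trunc_coeff (e : G → R) (F : Finset G) (g : G) :
    (trunc e F).coeff g = (by classical exact if g ∈ F then e g else 0) := by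
  classical
  unfold trunc
  rw [MonoidAlgebra.coeff_sum, Finsupp.finsetSum_apply]
  simp only [MonoidAlgebra.coeff_single, Finsupp.single_apply]
  rw [Finset.sum_ite_eq']

lemma trunc_support (e : G → R) (F : Finset G) : (trunc e F).coeff.support ⊆ F := by
  classical
  intro g hg
  rw [Finsupp.mem_support_iff, trunc_coeff] at hg
  by_contra h
  simp [h] at hg

lemma nu_trunc (v : G → ℝ) (e : G → R) (F : Finset G) :
    nu v (trunc e F) = ∑ g ∈ F, ‖e g‖ * v g := by
  classical
  rw [nu_eq_sum_of_subset v _ (trunc_support e F)]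
  apply Finset.sum_congr rfl
  intro g hg
  rw [trunc_coeff]
  simp [hg]

/-- `e` is an idempotent of `l1(G, R)`. -/
structure IdemR (e : G → R) : Prop where
  summ : Summable fun g => ‖e g‖
  conv : ∀ g, HasSum (fun h => e h * e (h⁻¹ * g)) (e g)

/-- `(g, h) ↦ (h, h⁻¹ g)` as an equivalence. -/
def twist : G × G ≃ G × G where
  toFun p := (p.2, p.2⁻¹ * p.1)
  invFun p := (p.1 * p.2, p.1)
  left_inv p := by simp
  right_inv p := by simp

/-- The truncation error on pairs. -/
noncomputable def err (e : G → R) (F : Finset G) (p : G × G) : ℝ := by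
  classical
  exact if p.1 ∈ F ∧ p.2 ∈ F then 0 else ‖e p.1‖ * ‖e p.2‖

lemma err_nonneg (e : G → R) (F : Finset G) (p : G × G) : 0 ≤ err e F p := by
  classical
  unfold err
  split_ifs
  · exact le_rfl
  · positivity

lemma err_le (e : G → R) (F : Finset G) (p : G × G) : err e F p ≤ ‖e p.1‖ * ‖e p.2‖ := by
  classical
  unfold err
  split_ifs
  · positivity
  · exact le_rfl

lemma summable_prod {e : G → R} (hs : Summable fun g => ‖e g‖) :
    Summable fun p : G × G => ‖e p.1‖ * ‖e p.2‖ :=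
  hs.mul_of_nonneg hs (fun _ => norm_nonneg _) (fun _ => norm_nonneg _)

lemma summable_err {e : G → R} (hs : Summable fun g => ‖e g‖) (F : Finset G) :
    Summable (err e F) :=
  Summable.of_nonneg_of_le (err_nonneg e F) (err_le e F) (summable_prod hs)

lemma tsum_err {e : G → R} (hs : Summable fun g => ‖e g‖) (F : Finset G) :
    ∑' p, err e F p = (∑' g, ‖e g‖) * (∑' g, ‖e g‖) - (∑ g ∈ F, ‖e g‖) * (∑ g ∈ F, ‖e g‖) := by
  classical
  have hprod := summable_prod hs
  have h1 : ∑' p : G × G, ‖e p.1‖ * ‖e p.2‖ = (∑' g, ‖e g‖) * (∑' g, ‖e g‖) := by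
    rw [hs.tsum_mul_tsum hs hprod]
  have h2 : ∀ p : G × G, err e F p = ‖e p.1‖ * ‖e p.2‖ -
      (if p ∈ F ×ˢ F then ‖e p.1‖ * ‖e p.2‖ else 0) := by
    intro p
    simp only [err, Finset.mem_product]
    split_ifs <;> simp
  have h3 : Summable fun p : G × G => (if p ∈ F ×ˢ F then ‖e p.1‖ * ‖e p.2‖ else 0) := by
    apply summable_of_ne_finset_zero (s := F ×ˢ F)
    intro p hp
    simp [hp]
  have h4 : ∑' p : G × G, (if p ∈ F ×ˢ F then ‖e p.1‖ * ‖e p.2‖ else 0) =
      (∑ g ∈ F, ‖e g‖) * (∑ g ∈ F, ‖e g‖) := by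
    rw [tsum_eq_sum (s := F ×ˢ F) (by intro p hp; simp [hp])]
    rw [Finset.sum_mul_sum, ← Finset.sum_product']
    apply Finset.sum_congr rfl
    intro p hp
    simp [hp]
  rw [← h1, ← h4, ← hprod.tsum_sub h3]
  exact tsum_congr h2

lemma summable_err_twist {e : G → R} (hs : Summable fun g => ‖e g‖) (F : Finset G) :
    Summable fun p : G × G => err e F (twist p) := by
  have h := (summable_err hs F).comp_injective (twist (G := G)).injective
  exact h

lemma hasSum_trunc_mul (e : G → R) (F : Finset G) (g : G) :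
    HasSum (fun h => (by classical exact (if h ∈ F then e h else 0) *
        (if h⁻¹ * g ∈ F then e (h⁻¹ * g) else 0))) ((trunc e F * trunc e F).coeff g) := by
  classical
  rw [MonoidAlgebra.coeff_mul_apply_left]
  have : ((trunc e F).coeff.sum fun h r => r * (trunc e F).coeff (h⁻¹ * g)) =
      ∑ h ∈ F, (if h ∈ F then e h else 0) * (if h⁻¹ * g ∈ F then e (h⁻¹ * g) else 0) := by
    rw [Finsupp.sum_of_support_subset _ (trunc_support e F) _ (by simp)]
    apply Finset.sum_congr rfl
    intro h _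
    rw [trunc_coeff, trunc_coeff]
  rw [this]
  apply hasSum_sum_of_ne_finset_zero
  intro h hh
  simp [hh]

lemma norm_coeff_sub_le {e : G → R} (he : IdemR e) (F : Finset G) (g : G) :
    ‖(trunc e F * trunc e F).coeff g - e g‖ ≤ ∑' h, err e F (twist (g, h)) := by
  classical
  have hfac : Summable fun h => err e F (twist (g, h)) :=
    (summable_err_twist he.summ F).prod_factor g
  have hdiff := (hasSum_trunc_mul e F g).sub (he.conv g)
  have hle : ∀ h, ‖(if h ∈ F then e h else 0) * (if h⁻¹ * g ∈ F then e (h⁻¹ * g) else 0)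
      - e h * e (h⁻¹ * g)‖ ≤ err e F (twist (g, h)) := by
    intro h
    simp only [err, twist, Equiv.coe_fn_mk]
    by_cases h1 : h ∈ F <;> by_cases h2 : h⁻¹ * g ∈ F <;> simp [h1, h2, norm_mul_le]
  rw [← hdiff.tsum_eq]
  have hns : Summable fun h => ‖(if h ∈ F then e h else 0) *
      (if h⁻¹ * g ∈ F then e (h⁻¹ * g) else 0) - e h * e (h⁻¹ * g)‖ :=
    Summable.of_nonneg_of_le (fun _ => norm_nonneg _) hle hfac
  refine (norm_tsum_le_tsum_norm hns).trans ?_
  exact hns.tsum_le_tsum hle hfac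

lemma nu_defect_le {e : G → R} (he : IdemR e) (F : Finset G) :
    nu (fun _ => 1) (trunc e F * trunc e F - trunc e F) ≤
      (2 * (∑' g, ‖e g‖) + 1) * ((∑' g, ‖e g‖) - ∑ g ∈ F, ‖e g‖) := by
  classical
  have hs := he.summ
  have hψs := summable_err_twist hs F
  have hψt : ∑' p : G × G, err e F (twist p) =
      (∑' g, ‖e g‖) * (∑' g, ‖e g‖) - (∑ g ∈ F, ‖e g‖) * (∑ g ∈ F, ‖e g‖) := by
    rw [Equiv.tsum_eq (twist (G := G)) (err e F), tsum_err hs]
  have hEF_le : ∑ g ∈ F, ‖e g‖ ≤ ∑' g, ‖e g‖ := hs.sum_le_tsum F (fun _ _ => norm_nonneg _)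
  have hEF0 : 0 ≤ ∑ g ∈ F, ‖e g‖ := Finset.sum_nonneg fun _ _ => norm_nonneg _
  set s := (trunc e F * trunc e F - trunc e F).coeff.support ∪ F with hs'
  rw [nu_eq_sum_of_subset (fun _ => (1 : ℝ)) (trunc e F * trunc e F - trunc e F) (s := s)
    Finset.subset_union_left]
  have hterm : ∀ g ∈ s, ‖(trunc e F * trunc e F - trunc e F).coeff g‖ * 1 ≤
      (∑' h, err e F (twist (g, h))) + (‖e g‖ - if g ∈ F then ‖e g‖ else 0) := by
    intro g _
    rw [mul_one, MonoidAlgebra.coeff_sub, Finsupp.sub_apply]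
    have e1 : (trunc e F * trunc e F).coeff g - (trunc e F).coeff g =
      ((trunc e F * trunc e F).coeff g - e g) + (e g - (trunc e F).coeff g) := by abel
    rw [e1]
    refine (norm_add_le _ _).trans ?_
    apply add_le_add (norm_coeff_sub_le he F g)
    rw [trunc_coeff]
    split_ifs <;> simp
  refine (Finset.sum_le_sum hterm).trans ?_
  rw [Finset.sum_add_distrib, Finset.sum_sub_distrib]
  have hψs' : Summable fun g => ∑' h, err e F (twist (g, h)) := hψs.prod
  have b1 : ∑ g ∈ s, ∑' h, err e F (twist (g, h)) ≤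
      (∑' g, ‖e g‖) * (∑' g, ‖e g‖) - (∑ g ∈ F, ‖e g‖) * (∑ g ∈ F, ‖e g‖) := by
    rw [← hψt, hψs.tsum_prod]
    exact hψs'.sum_le_tsum s (fun g _ => tsum_nonneg fun h => err_nonneg _ _ _)
  have b2 : ∑ g ∈ s, ‖e g‖ ≤ ∑' g, ‖e g‖ := hs.sum_le_tsum s (fun _ _ => norm_nonneg _)
  have b3 : ∑ g ∈ s, (if g ∈ F then ‖e g‖ else 0) = ∑ g ∈ F, ‖e g‖ := by
    rw [← Finset.sum_filter]
    apply Finset.sum_congr _ (fun _ _ => rfl)
    ext g
    simp only [Finset.mem_filter, hs', Finset.mem_union]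
    tauto
  rw [b3]
  nlinarith

end L1

end Vale.Agent.P184
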