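import Vale.Agent.P184.Criterion

/-!
# Good homomorphisms from linear representations over normed fields
-/

set_option linter.unusedSectionVars false

namespace Vale.Agent.P184

open scoped BigOperators

attribute [local instance] Matrix.linftyOpNormedRing

section linear

variable {Ω : Type*} [NormedField Ω] {n : ℕ}

lemma functional_bound (φ : (Fin n → Ω) →ₗ[Ω] Ω) (v : Fin n → Ω) :
    ‖φ v‖ ≤ (∑ k, ‖φ (Pi.single k 1)‖) * ‖v‖ := by
  have h1 : φ v = ∑ k, v k * φ (Pi.single k 1) := by
    conv_lhs => rw [pi_eq_sum_univ' v, map_sum]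
    apply Finset.sum_congr rfl
    intro k _
    rw [map_smul, smul_eq_mul]
  rw [h1]
  refine (norm_sum_le _ _).trans ?_
  rw [Finset.sum_mul]
  apply Finset.sum_le_sum
  intro k _
  rw [norm_mul, mul_comm]
  exact mul_le_mul_of_nonneg_left (norm_le_pi_norm v k) (norm_nonneg _)

/-- The determinant of the restriction of a matrix to an invariant subspace of dimension `m` is
bounded by a constant times the `m`-th power of its norm. -/
lemma exists_det_bound (V : Submodule Ω (Fin n → Ω)) :
    ∃ C : ℝ, 0 < C ∧ ∀ (A : Matrix (Fin n) (Fin n) Ω)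
      (h : Set.MapsTo (Matrix.toLin' A) (V : Set (Fin n → Ω)) (V : Set (Fin n → Ω))),
      ‖LinearMap.det ((Matrix.toLin' A).restrict h)‖ ≤ C * ‖A‖ ^ (Module.finrank Ω V) := by
  classical
  set m := Module.finrank Ω V with hm
  set b := Module.finBasis Ω V with hb
  have hext : ∀ i : Fin m, ∃ φ : (Fin n → Ω) →ₗ[Ω] Ω, φ ∘ₗ V.subtype = b.coord i := fun i =>
    LinearMap.exists_extend (b.coord i)
  choose φ hφ using hext
  set c : ℝ := ∑ i : Fin m, ∑ j : Fin m, (∑ k, ‖φ i (Pi.single k 1)‖) * ‖((b j : V) : Fin n → Ω)‖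
    with hc
  have hc0 : 0 ≤ c := Finset.sum_nonneg fun i _ => Finset.sum_nonneg fun j _ => by positivity
  refine ⟨(m.factorial : ℝ) * (c + 1) ^ m, by positivity, ?_⟩
  intro A h
  rw [← LinearMap.det_toMatrix b]
  have hentry : ∀ i j, (NormedField.toAbsoluteValue Ω)
      ((LinearMap.toMatrix b b) ((Matrix.toLin' A).restrict h) i j) ≤ (c + 1) * ‖A‖ := by
    intro i j
    change ‖(LinearMap.toMatrix b b) ((Matrix.toLin' A).restrict h) i j‖ ≤ _
    rw [LinearMap.toMatrix_apply]
    have e1 : (b.repr (((Matrix.toLin' A).restrict h) (b j))) i =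
        φ i (A.mulVec ((b j : V) : Fin n → Ω)) := by
      have := LinearMap.congr_fun (hφ i) (((Matrix.toLin' A).restrict h) (b j))
      simp only [LinearMap.comp_apply, Submodule.subtype_apply, Module.Basis.coord_apply] at this
      rw [← this]
      rfl
    rw [e1]
    refine (functional_bound _ _).trans ?_
    have h1 : ‖A.mulVec ((b j : V) : Fin n → Ω)‖ ≤ ‖A‖ * ‖((b j : V) : Fin n → Ω)‖ :=
      Matrix.linfty_opNorm_mulVec _ _
    have h2 : (∑ k, ‖φ i (Pi.single k 1)‖) * ‖((b j : V) : Fin n → Ω)‖ ≤ c := by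
      rw [hc]
      refine le_trans ?_ (Finset.single_le_sum (f := fun i => ∑ j : Fin m,
        (∑ k, ‖φ i (Pi.single k 1)‖) * ‖((b j : V) : Fin n → Ω)‖)
        (fun i _ => Finset.sum_nonneg fun j _ => by positivity) (Finset.mem_univ i))
      exact Finset.single_le_sum (f := fun j => (∑ k, ‖φ i (Pi.single k 1)‖) *
        ‖((b j : V) : Fin n → Ω)‖) (fun j _ => by positivity) (Finset.mem_univ j)
    calc (∑ k, ‖φ i (Pi.single k 1)‖) * ‖A.mulVec ((b j : V) : Fin n → Ω)‖
        ≤ (∑ k, ‖φ i (Pi.single k 1)‖) * (‖A‖ * ‖((b j : V) : Fin n → Ω)‖) :=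
          mul_le_mul_of_nonneg_left h1 (by positivity)
      _ = ((∑ k, ‖φ i (Pi.single k 1)‖) * ‖((b j : V) : Fin n → Ω)‖) * ‖A‖ := by ring
      _ ≤ (c + 1) * ‖A‖ := mul_le_mul_of_nonneg_right (by linarith) (norm_nonneg _)
  have := Matrix.det_le (abv := NormedField.toAbsoluteValue Ω) hentry
  change ‖_‖ ≤ _ at this
  refine this.trans (le_of_eq ?_)
  rw [Fintype.card_fin, nsmul_eq_mul, mul_pow]
  ring

variable {H : Type*} [Group H]

/-- The length function attached to a linear representation over a normed field. -/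
noncomputable def linLength (M : H →* Matrix (Fin n) (Fin n) Ω) (c : ℝ) (z : H) : ℝ :=
  c * max (Real.log ‖M z‖) (Real.log ‖M z⁻¹‖)

lemma norm_pos_of_rep [NeZero n] (M : H →* Matrix (Fin n) (Fin n) Ω) (z : H) : 0 < ‖M z‖ := by
  rw [norm_pos_iff]
  intro h
  have h1 : M z * M z⁻¹ = 1 := by rw [← map_mul, mul_inv_cancel, map_one]
  rw [h, zero_mul] at h1
  exact zero_ne_one h1

lemma linLength_isLength [NeZero n] (M : H →* Matrix (Fin n) (Fin n) Ω) {c : ℝ} (hc : 0 ≤ c) :
    IsLength (linLength M c) := by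
  constructor
  · intro g h
    unfold linLength
    rw [← mul_add]
    apply mul_le_mul_of_nonneg_left _ hc
    have p := norm_pos_of_rep M
    apply max_le
    · rw [map_mul]
      calc Real.log ‖M g * M h‖ ≤ Real.log (‖M g‖ * ‖M h‖) :=
            Real.log_le_log (by rw [← map_mul]; exact p _) (norm_mul_le _ _)
        _ = Real.log ‖M g‖ + Real.log ‖M h‖ := Real.log_mul (p g).ne' (p h).ne'
        _ ≤ _ := add_le_add (le_max_left _ _) (le_max_left _ _)
    · rw [mul_inv_rev, map_mul]
      calc Real.log ‖M h⁻¹ * M g⁻¹‖ ≤ Real.log (‖M h⁻¹‖ * ‖M g⁻¹‖) :=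
            Real.log_le_log (by rw [← map_mul]; exact p _) (norm_mul_le _ _)
        _ = Real.log ‖M h⁻¹‖ + Real.log ‖M g⁻¹‖ := Real.log_mul (p _).ne' (p _).ne'
        _ ≤ _ := by
          rw [add_comm]
          exact add_le_add (le_max_right _ _) (le_max_right _ _)
  · intro g
    unfold linLength
    rw [inv_inv, max_comm]

/-- The eigenspace of `M s`. -/
noncomputable def eig (M : H →* Matrix (Fin n) (Fin n) Ω) (s : H) (lam : Ω) :
    Submodule Ω (Fin n → Ω) :=
  Module.End.eigenspace (Matrix.toLin' (M s)) lam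

lemma mem_eig (M : H →* Matrix (Fin n) (Fin n) Ω) (s : H) (lam : Ω) (v : Fin n → Ω) :
    v ∈ eig M s lam ↔ (M s).mulVec v = lam • v := by
  unfold eig
  rw [Module.End.mem_eigenspace_iff, Matrix.toLin'_apply]

lemma mapsTo_eig (M : H →* Matrix (Fin n) (Fin n) Ω) {s z : H} (lam : Ω) (hz : Commute z s) :
    Set.MapsTo (Matrix.toLin' (M z)) (eig M s lam : Set (Fin n → Ω))
      (eig M s lam : Set (Fin n → Ω)) := by
  intro v hv
  rw [SetLike.mem_coe, mem_eig] at hv ⊢
  rw [Matrix.toLin'_apply, Matrix.mulVec_mulVec, ← map_mul, ← hz.eq, map_mul,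
    ← Matrix.mulVec_mulVec, hv, Matrix.mulVec_smul]

/-- The action of the centralizer of `s` on the eigenspace of `s`. -/
noncomputable def actHom (M : H →* Matrix (Fin n) (Fin n) Ω) (s : H) (lam : Ω) :
    Subgroup.centralizer ({s} : Set H) →* Module.End Ω (eig M s lam) where
  toFun z := (Matrix.toLin' (M z.1)).restrict
    (mapsTo_eig M lam (Subgroup.mem_centralizer_singleton_iff.1 z.2))
  map_one' := by
    apply LinearMap.ext
    intro v
    apply Subtype.ext
    change (M 1).mulVec v.1 = v.1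
    rw [map_one, Matrix.one_mulVec]
  map_mul' z w := by
    apply LinearMap.ext
    intro v
    apply Subtype.ext
    change (M (z.1 * w.1)).mulVec v.1 = (M z.1).mulVec ((M w.1).mulVec v.1)
    rw [map_mul, Matrix.mulVec_mulVec]

/-- The determinant of the action on the eigenspace of `s`. -/
noncomputable def dt (M : H →* Matrix (Fin n) (Fin n) Ω) (s : H) (lam : Ω) :
    Subgroup.centralizer ({s} : Set H) →* Ω :=
  (LinearMap.det (A := Ω) (M := eig M s lam)).comp (actHom M s lam)

/-- `s` as an element of its centralizer. -/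
def selfC (s : H) : Subgroup.centralizer ({s} : Set H) :=
  ⟨s, Subgroup.mem_centralizer_singleton_iff.2 rfl⟩

lemma dt_self (M : H →* Matrix (Fin n) (Fin n) Ω) (s : H) (lam : Ω) :
    dt M s lam (selfC s) = lam ^ (Module.finrank Ω (eig M s lam)) := by
  have h1 : actHom M s lam (selfC s) = lam • LinearMap.id := by
    apply LinearMap.ext
    intro v
    apply Subtype.ext
    change (M s).mulVec v.1 = lam • v.1
    exact (mem_eig M s lam v).1 v.2
  change LinearMap.det (actHom M s lam (selfC s)) = _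
  rw [h1, LinearMap.det_smul, LinearMap.det_id, mul_one]

lemma dt_ne_zero (M : H →* Matrix (Fin n) (Fin n) Ω) (s : H) (lam : Ω)
    (z : Subgroup.centralizer ({s} : Set H)) : dt M s lam z ≠ 0 := by
  intro h
  have h1 : dt M s lam z * dt M s lam z⁻¹ = 1 := by
    rw [← map_mul, mul_inv_cancel, map_one]
  rw [h, zero_mul] at h1
  exact zero_ne_one h1

lemma log_dt_le [NeZero n] (M : H →* Matrix (Fin n) (Fin n) Ω) (s : H) (lam : Ω)
    (z : Subgroup.centralizer ({s} : Set H)) :
    Real.log ‖dt M s lam z‖ ≤ (Module.finrank Ω (eig M s lam)) * Real.log ‖M z.1‖ := by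
  obtain ⟨C, hC, hb⟩ := exists_det_bound (eig M s lam)
  set m := Module.finrank Ω (eig M s lam) with hm
  have hpos : 0 < ‖dt M s lam z‖ := norm_pos_iff.2 (dt_ne_zero M s lam z)
  have hMz := norm_pos_of_rep M z.1
  have key : ∀ k : ℕ, (k : ℝ) * Real.log ‖dt M s lam z‖ ≤
      Real.log C + k * (m * Real.log ‖M z.1‖) := by
    intro k
    have h2 : ‖dt M s lam (z ^ k)‖ ≤ C * ‖M (z ^ k).1‖ ^ m :=
      hb (M (z ^ k).1) (mapsTo_eig M lam (Subgroup.mem_centralizer_singleton_iff.1 (z ^ k).2))
    rw [map_pow, norm_pow] at h2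
    have h3 : ‖M (z ^ k).1‖ ≤ ‖M z.1‖ ^ k := by
      have : (z ^ k).1 = z.1 ^ k := rfl
      rw [this, map_pow]
      rcases Nat.eq_zero_or_pos k with hk | hk
      · subst hk
        simp
      · exact norm_pow_le' _ hk
    have h4 : ‖dt M s lam z‖ ^ k ≤ C * (‖M z.1‖ ^ k) ^ m :=
      h2.trans (mul_le_mul_of_nonneg_left (pow_le_pow_left₀ (norm_nonneg _) h3 m) hC.le)
    have h5 := Real.log_le_log (by positivity) h4
    rw [Real.log_pow, Real.log_mul hC.ne' (by positivity), Real.log_pow, Real.log_pow] at h5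
    linarith
  by_contra hcon
  push Not at hcon
  set d := Real.log ‖dt M s lam z‖ - m * Real.log ‖M z.1‖ with hd
  have hd0 : 0 < d := by linarith
  obtain ⟨k, hk⟩ := exists_nat_gt (Real.log C / d)
  have h1 := key k
  have h2 : (k : ℝ) * d ≤ Real.log C := by
    rw [hd]; linarith
  rw [div_lt_iff₀ hd0] at hk
  linarith

/-- A linear representation over a normed field with an eigenvalue of `s` of norm different from
one gives a good homomorphism on the centralizer of `s`. -/
theorem linear_goodHom [NeZero n] (M : H →* Matrix (Fin n) (Fin n) Ω) (s : H) (lam : Ω)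
    (hlam : Real.log ‖lam‖ ≠ 0) (hev : ∃ v : Fin n → Ω, v ≠ 0 ∧ (M s).mulVec v = lam • v) :
    ∃ ρ : H → ℝ, GoodHom (linLength M (1 / |Real.log ‖lam‖|)) s ρ := by
  classical
  set m := Module.finrank Ω (eig M s lam) with hm
  have hm0 : 0 < m := by
    rw [hm, Module.finrank_pos_iff]
    obtain ⟨v, hv0, hv⟩ := hev
    refine ⟨⟨⟨v, (mem_eig M s lam v).2 hv⟩, 0, ?_⟩⟩
    intro h
    apply hv0
    exact congrArg Subtype.val h
  have hmR : (0 : ℝ) < m := by exact_mod_cast hm0
  refine ⟨fun z => if hz : Commute z s then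
    Real.log ‖dt M s lam ⟨z, Subgroup.mem_centralizer_singleton_iff.2 hz⟩‖ /
      (m * Real.log ‖lam‖) else 0, ?_, ?_, ?_⟩
  · intro z w hz hw
    have hzw := hz.mul_left hw
    rw [dif_pos hz, dif_pos hw, dif_pos hzw]
    have h1 : dt M s lam ⟨z * w, Subgroup.mem_centralizer_singleton_iff.2 hzw⟩ =
        dt M s lam ⟨z, Subgroup.mem_centralizer_singleton_iff.2 hz⟩ *
        dt M s lam ⟨w, Subgroup.mem_centralizer_singleton_iff.2 hw⟩ := by
      rw [← map_mul]; rfl
    rw [h1, norm_mul, Real.log_mul (norm_ne_zero_iff.2 (dt_ne_zero _ _ _ _))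
        (norm_ne_zero_iff.2 (dt_ne_zero _ _ _ _))]
    ring
  · intro z hz
    rw [dif_pos hz, abs_div, abs_mul, abs_of_pos hmR]
    unfold linLength
    have hl : 0 < |Real.log ‖lam‖| := abs_pos.2 hlam
    set zz : Subgroup.centralizer ({s} : Set H) :=
      ⟨z, Subgroup.mem_centralizer_singleton_iff.2 hz⟩ with hzz
    have h1 := log_dt_le M s lam zz
    have h2 := log_dt_le M s lam zz⁻¹
    have h3 : Real.log ‖dt M s lam zz⁻¹‖ = - Real.log ‖dt M s lam zz‖ := by
      have h4 : dt M s lam zz * dt M s lam zz⁻¹ = 1 := by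
        rw [← map_mul, mul_inv_cancel, map_one]
      have h6 := congrArg (fun x => Real.log ‖x‖) h4
      simp only [norm_one, Real.log_one, norm_mul] at h6
      rw [Real.log_mul (norm_ne_zero_iff.2 (dt_ne_zero _ _ _ _))
        (norm_ne_zero_iff.2 (dt_ne_zero _ _ _ _))] at h6
      linarith
    rw [h3] at h2
    have e2 : (zz⁻¹).1 = z⁻¹ := rfl
    have e1 : zz.1 = z := rfl
    rw [e2, ← hm] at h2
    rw [e1, ← hm] at h1
    rw [div_le_iff₀ (by positivity)]
    have h7 : |Real.log ‖dt M s lam zz‖| ≤ m * max (Real.log ‖M z‖) (Real.log ‖M z⁻¹‖) := by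
      rw [abs_le]
      constructor
      · have := mul_le_mul_of_nonneg_left (le_max_right (Real.log ‖M z‖) (Real.log ‖M z⁻¹‖)) hmR.le
        linarith
      · have := mul_le_mul_of_nonneg_left (le_max_left (Real.log ‖M z‖) (Real.log ‖M z⁻¹‖)) hmR.le
        linarith
    refine h7.trans (le_of_eq ?_)
    field_simp
  · rw [dif_pos (Commute.refl s)]
    have h1 : dt M s lam ⟨s, Subgroup.mem_centralizer_singleton_iff.2 (Commute.refl s)⟩ =
      lam ^ (Module.finrank Ω (eig M s lam)) := dt_self M s lam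
    rw [h1, norm_pow, Real.log_pow, ← hm]
    field_simp

end linear

end Vale.Agent.P184
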