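import Vale.Agent.P184.KilledLinear

/-!
# Linear groups
-/

set_option linter.unusedSectionVars false

namespace Vale.Agent.P184

open scoped BigOperators
open Polynomial

section

variable {G : Type*} [Group G] {K : Type*} [Field K] {n : ℕ}

/-- If the image of `h` under a linear representation has an eigenvalue which is not a root of
unity, then `h` is locally tame. -/
theorem locallyTame_of_eigenvalue (M : G →* GL (Fin n) K) {h : G} (lam : AlgebraicClosure K)
    (hroot : ((M h : Matrix (Fin n) (Fin n) K).charpoly.map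
      (algebraMap K (AlgebraicClosure K))).IsRoot lam)
    (hlam : ∀ k : ℕ, 0 < k → lam ^ k ≠ 1) : LocallyTame h := by
  classical
  set φ := algebraMap K (AlgebraicClosure K) with hφ
  set M' : G →* Matrix (Fin n) (Fin n) (AlgebraicClosure K) :=
    ((RingHom.mapMatrix φ).toMonoidHom.comp (Units.coeHom (Matrix (Fin n) (Fin n) K))).comp M
    with hM'
  apply locallyTame_of_eigenvector M' lam hlam
  have h1 : M' h = (M h : Matrix (Fin n) (Fin n) K).map φ := rfl
  rw [← Matrix.charpoly_map, ← h1, Polynomial.IsRoot.def, Matrix.eval_charpoly] at hroot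
  obtain ⟨v, hv0, hv⟩ := Matrix.exists_mulVec_eq_zero_iff.2 hroot
  refine ⟨v, hv0, ?_⟩
  rw [Matrix.sub_mulVec, sub_eq_zero] at hv
  rw [← hv]
  simp [Matrix.scalar_apply]

/-- Over a field of characteristic `p`, an invertible matrix all of whose eigenvalues are roots of
unity has finite order. -/
theorem exists_eigenvalue_of_infinite_order (p : ℕ) [CharP K p] (hp : p ≠ 0) (A : GL (Fin n) K)
    (hA : ¬ IsOfFinOrder A) :
    ∃ lam : AlgebraicClosure K, ((A : Matrix (Fin n) (Fin n) K).charpoly.map
      (algebraMap K (AlgebraicClosure K))).IsRoot lam ∧ ∀ k : ℕ, 0 < k → lam ^ k ≠ 1 := by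
  classical
  by_contra hcon
  push Not at hcon
  apply hA
  set φ := algebraMap K (AlgebraicClosure K) with hφ
  set B : Matrix (Fin n) (Fin n) (AlgebraicClosure K) := (A : Matrix (Fin n) (Fin n) K).map φ
    with hB
  have hcp : B.charpoly = (A : Matrix (Fin n) (Fin n) K).charpoly.map φ := by
    rw [hB, Matrix.charpoly_map]
  rw [← hcp] at hcon
  have hmonic := B.charpoly_monic
  have hsplit : B.charpoly.Splits := IsAlgClosed.splits _
  -- a common exponent
  have hN : ∃ N : ℕ, 0 < N ∧ ∀ r ∈ B.charpoly.roots, r ^ N = 1 := by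
    have : ∀ s : Multiset (AlgebraicClosure K), (∀ r ∈ s, ∃ k : ℕ, 0 < k ∧ r ^ k = 1) →
        ∃ N : ℕ, 0 < N ∧ ∀ r ∈ s, r ^ N = 1 := by
      intro s
      induction s using Multiset.induction_on with
      | empty => intro _; exact ⟨1, one_pos, by simp⟩
      | cons a s ih =>
        intro hs
        obtain ⟨N, hN, hN'⟩ := ih fun r hr => hs r (Multiset.mem_cons_of_mem hr)
        obtain ⟨k, hk, hk'⟩ := hs a (Multiset.mem_cons_self a s)
        refine ⟨N * k, Nat.mul_pos hN hk, ?_⟩
        intro r hr
        rcases Multiset.mem_cons.1 hr with rfl | hr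
        · rw [mul_comm, pow_mul, hk', one_pow]
        · rw [pow_mul, hN' r hr, one_pow]
    apply this
    intro r hr
    exact hcon r (Polynomial.isRoot_of_mem_roots hr)
  obtain ⟨N, hN, hroots⟩ := hN
  have hdvd : B.charpoly ∣ (X ^ N - 1 : (AlgebraicClosure K)[X]) ^ B.charpoly.roots.card := by
    conv_lhs => rw [hsplit.eq_prod_roots_of_monic hmonic]
    rw [← Multiset.prod_replicate, ← Multiset.map_const']
    apply Multiset.prod_dvd_prod_of_dvd
    intro r hr
    rw [Polynomial.dvd_iff_isRoot]
    simp [hroots r hr]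
  have hzero : (B ^ N - 1) ^ B.charpoly.roots.card = 0 := by
    obtain ⟨Q, hQ⟩ := hdvd
    have h1 := congrArg (Polynomial.aeval B) hQ
    rw [map_mul, Matrix.aeval_self_charpoly, zero_mul] at h1
    simpa using h1
  have hprime : p.Prime := (CharP.char_is_prime_or_zero K p).resolve_right hp
  have : Fact p.Prime := ⟨hprime⟩
  have : CharP (AlgebraicClosure K) p := charP_of_injective_algebraMap (algebraMap K _).injective p
  set k := B.charpoly.roots.card with hk
  have hlt : k ≤ p ^ k := (Nat.lt_pow_self hprime.one_lt).le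
  have hzero' : (B ^ N - 1) ^ p ^ k = 0 := pow_eq_zero_of_le hlt hzero
  have hone : B ^ (N * p ^ k) = 1 := by
    rcases isEmpty_or_nonempty (Fin n) with hemp | hne
    · exact Subsingleton.elim _ _
    have : CharP (Matrix (Fin n) (Fin n) (AlgebraicClosure K)) p := Matrix.charP p
    have : ExpChar (Matrix (Fin n) (Fin n) (AlgebraicClosure K)) p := ExpChar.prime hprime
    rw [sub_pow_expChar_pow_of_commute p k (Commute.one_right _), one_pow, sub_eq_zero,
      ← pow_mul] at hzero'
    exact hzero'
  rw [isOfFinOrder_iff_pow_eq_one]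
  refine ⟨N * p ^ k, Nat.mul_pos hN (pow_pos hprime.pos _), ?_⟩
  have hinj : Function.Injective (fun X : Matrix (Fin n) (Fin n) K => X.map φ) :=
    Matrix.map_injective φ.injective
  apply Units.ext
  apply hinj
  have h2 : (fun X : Matrix (Fin n) (Fin n) K => X.map φ) ((A ^ (N * p ^ k) : GL (Fin n) K)) =
      B ^ (N * p ^ k) := by
    rw [Units.val_pow_eq_pow_val]
    exact map_pow (RingHom.mapMatrix φ) _ _
  rw [h2, hone]
  simp

/-- In characteristic `p > 0`, every element whose image under a linear representation has infinite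
order is locally tame. -/
theorem locallyTame_of_charP (p : ℕ) [CharP K p] (hp : p ≠ 0) (M : G →* GL (Fin n) K) {h : G}
    (hh : ¬ IsOfFinOrder (M h)) : LocallyTame h := by
  obtain ⟨lam, h1, h2⟩ := exists_eigenvalue_of_infinite_order p hp (M h) hh
  exact locallyTame_of_eigenvalue M lam h1 h2

end

end Vale.Agent.P184
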