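import Vale.Agent.P184.Criterion
import Vale.Agent.P184.Defs

/-!
# From matrices over `l1(G)` to `l1(G, M_q(ℂ))`
-/

set_option linter.unusedSectionVars false

namespace Vale.Agent.P184

open scoped BigOperators

attribute [local instance] Matrix.linftyOpNormedRing

section main

variable {G : Type*} [Group G] {q : ℕ}

/-- The matrix valued function attached to a matrix of functions. -/
def matFun (e : Matrix (Fin q) (Fin q) (G → ℂ)) (g : G) : Matrix (Fin q) (Fin q) ℂ :=
  fun i j => e i j g

lemma norm_entry_le (A : Matrix (Fin q) (Fin q) ℂ) (i j : Fin q) : ‖A i j‖ ≤ ‖A‖ := by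
  have h1 : ‖A i j‖₊ ≤ ‖A‖₊ := by
    rw [Matrix.linfty_opNNNorm_def]
    refine le_trans ?_ (Finset.le_sup (f := fun i => ∑ j, ‖A i j‖₊) (Finset.mem_univ i))
    exact Finset.single_le_sum (f := fun j => ‖A i j‖₊) (fun _ _ => zero_le) (Finset.mem_univ j)
  exact_mod_cast h1

lemma norm_le_sum (A : Matrix (Fin q) (Fin q) ℂ) : ‖A‖ ≤ ∑ i, ∑ j, ‖A i j‖ := by
  have h1 : ‖A‖₊ ≤ ∑ i, ∑ j, ‖A i j‖₊ := by
    rw [Matrix.linfty_opNNNorm_def]
    apply Finset.sup_le
    intro i _
    exact Finset.single_le_sum (f := fun i => ∑ j, ‖A i j‖₊) (fun _ _ => zero_le)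
      (Finset.mem_univ i)
  have h2 := NNReal.coe_le_coe.2 h1
  push_cast at h2
  exact h2

lemma idemR_matFun {e : Matrix (Fin q) (Fin q) (G → ℂ)} (he : IsL1Idempotent e) :
    IdemR (matFun e) := by
  classical
  have hsumm : Summable fun g => ‖matFun e g‖ := by
    have h1 : Summable fun g => ∑ i, ∑ j, ‖e i j g‖ :=
      summable_sum fun i _ => summable_sum fun j _ => he.summable i j
    exact Summable.of_nonneg_of_le (fun _ => norm_nonneg _) (fun g => norm_le_sum _) h1
  refine ⟨hsumm, ?_⟩
  intro g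
  have hentry : ∀ i j, Summable fun h => ∑ k, e i k h * e k j (h⁻¹ * g) := by
    intro i j
    apply summable_sum
    intro k _
    have h1 := he.summable i k
    have h2 : Summable fun h : G => ‖e k j (h⁻¹ * g)‖ := by
      have := (he.summable k j).comp_injective
        (i := fun h : G => h⁻¹ * g) (fun a b hab => by simpa using hab)
      exact this
    have h3 : ∀ h, ‖e k j (h⁻¹ * g)‖ ≤ ∑' x, ‖e k j x‖ := fun h =>
      (he.summable k j).le_tsum _ (fun _ _ => norm_nonneg _)
    apply Summable.of_norm_bounded (g := fun h => ‖e i k h‖ * ∑' x, ‖e k j x‖)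
      (h1.mul_right _)
    intro h
    rw [norm_mul]
    exact mul_le_mul_of_nonneg_left (h3 h) (norm_nonneg _)
  have hval : ∀ i j, HasSum (fun h => ∑ k, e i k h * e k j (h⁻¹ * g)) (e i j g) := by
    intro i j
    have h1 := (hentry i j).hasSum
    have h2 : ∑' h, ∑ k, e i k h * e k j (h⁻¹ * g) = e i j g := by
      have h3 := congrFun (he.idem i j) g
      rw [Finset.sum_apply] at h3
      rw [← h3]
      simp only [conv]
      rw [Summable.tsum_finsetSum]
      intro k _
      have h3 : ∀ h, ‖e k j (h⁻¹ * g)‖ ≤ ∑' x, ‖e k j x‖ := fun h =>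
        (he.summable k j).le_tsum _ (fun _ _ => norm_nonneg _)
      apply Summable.of_norm_bounded (g := fun h => ‖e i k h‖ * ∑' x, ‖e k j x‖)
        ((he.summable i k).mul_right _)
      intro h
      rw [norm_mul]
      exact mul_le_mul_of_nonneg_left (h3 h) (norm_nonneg _)
    rw [h2] at h1
    exact h1
  have key : HasSum (fun h => (fun i j => ∑ k, e i k h * e k j (h⁻¹ * g) : Fin q → Fin q → ℂ))
      (fun i j => e i j g) := by
    rw [Pi.hasSum]
    intro i
    rw [Pi.hasSum]
    intro j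
    exact hval i j
  exact key

lemma norm_trace_le (A : Matrix (Fin q) (Fin q) ℂ) :
    ‖Matrix.traceAddMonoidHom (Fin q) ℂ A‖ ≤ q * ‖A‖ := by
  have h1 : Matrix.traceAddMonoidHom (Fin q) ℂ A = ∑ i, A i i := rfl
  rw [h1]
  refine (norm_sum_le _ _).trans ?_
  calc ∑ i, ‖A i i‖ ≤ ∑ _i : Fin q, ‖A‖ := Finset.sum_le_sum fun i _ => norm_entry_le A i i
    _ = q * ‖A‖ := by simp

/-- The vanishing theorem for matrices over `l1(G)`. -/
theorem hsTrace_eq_zero_of_killed {e : Matrix (Fin q) (Fin q) (G → ℂ)} (he : IsL1Idempotent e)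
    (C : ConjClasses G) (hK : Killed C.carrier) : hsTrace e C = 0 := by
  classical
  have h := trace_zero hK (tr := Matrix.traceAddMonoidHom (Fin q) ℂ) (c := q)
    (fun a b => Matrix.trace_mul_comm a b) (Nat.cast_nonneg q) norm_trace_le (idemR_matFun he)
  unfold hsTrace
  rw [← tsum_subtype] at h
  exact h

end main

end Vale.Agent.P184
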