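import Vale.Agent.P184.Core

/-!
# Norm estimates and the iteration `a ↦ 3 a^2 - 2 a^3`
-/

set_option linter.unusedSectionVars false

namespace Vale.Agent.P184

open scoped BigOperators
open MonoidAlgebra

section norms

variable {G : Type*} [Group G] {R : Type*} [NormedRing R]

lemma nu_zero (v : G → ℝ) : nu v (0 : MonoidAlgebra R G) = 0 := by simp [nu]

lemma nu_single (v : G → ℝ) (g : G) (a : R) : nu v (single g a) = ‖a‖ * v g := by
  unfold nu
  rw [MonoidAlgebra.coeff_single, Finsupp.sum_single_index]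
  simp

lemma nu_nonneg {v : G → ℝ} (hv : ∀ g, 0 ≤ v g) (x : MonoidAlgebra R G) : 0 ≤ nu v x := by
  unfold nu
  exact Finsupp.sum_nonneg fun g _ => mul_nonneg (norm_nonneg _) (hv g)

lemma nu_eq_sum_of_subset (v : G → ℝ) (x : MonoidAlgebra R G) {s : Finset G}
    (hs : x.coeff.support ⊆ s) : nu v x = ∑ g ∈ s, ‖x.coeff g‖ * v g := by
  unfold nu
  exact Finsupp.sum_of_support_subset _ hs _ (by simp)

lemma nu_add_le {v : G → ℝ} (hv : ∀ g, 0 ≤ v g) (x y : MonoidAlgebra R G) :
    nu v (x + y) ≤ nu v x + nu v y := by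
  classical
  set s := x.coeff.support ∪ y.coeff.support ∪ (x + y).coeff.support with hs
  have h1 : x.coeff.support ⊆ s := Finset.subset_union_left.trans Finset.subset_union_left
  have h2 : y.coeff.support ⊆ s := Finset.subset_union_right.trans Finset.subset_union_left
  have h3 : (x + y).coeff.support ⊆ s := Finset.subset_union_right
  rw [nu_eq_sum_of_subset v x h1, nu_eq_sum_of_subset v y h2, nu_eq_sum_of_subset v (x + y) h3,
    ← Finset.sum_add_distrib]
  apply Finset.sum_le_sum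
  intro g _
  rw [MonoidAlgebra.coeff_add, Finsupp.add_apply, ← add_mul]
  exact mul_le_mul_of_nonneg_right (norm_add_le _ _) (hv g)

lemma nu_neg (v : G → ℝ) (x : MonoidAlgebra R G) : nu v (-x) = nu v x := by
  classical
  have h1 : (-x).coeff.support ⊆ x.coeff.support := by
    intro g hg
    simp only [Finsupp.mem_support_iff] at hg ⊢
    intro h0
    apply hg
    rw [MonoidAlgebra.coeff_neg, Finsupp.neg_apply, h0, neg_zero]
  rw [nu_eq_sum_of_subset v (-x) h1, nu_eq_sum_of_subset v x subset_rfl]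
  apply Finset.sum_congr rfl
  intro g _
  rw [MonoidAlgebra.coeff_neg, Finsupp.neg_apply, norm_neg]

lemma nu_sub_le {v : G → ℝ} (hv : ∀ g, 0 ≤ v g) (x y : MonoidAlgebra R G) :
    nu v (x - y) ≤ nu v x + nu v y := by
  rw [sub_eq_add_neg]
  refine (nu_add_le hv _ _).trans ?_
  rw [nu_neg]

lemma nu_nsmul_le {v : G → ℝ} (hv : ∀ g, 0 ≤ v g) (n : ℕ) (x : MonoidAlgebra R G) :
    nu v (n • x) ≤ n * nu v x := by
  induction n with
  | zero => simp [nu_zero]
  | succ n ih =>
    rw [succ_nsmul]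
    refine (nu_add_le hv _ _).trans ?_
    push_cast
    linarith

lemma nu_sum_le {v : G → ℝ} (hv : ∀ g, 0 ≤ v g) {ι : Type*} (s : Finset ι)
    (f : ι → MonoidAlgebra R G) : nu v (∑ i ∈ s, f i) ≤ ∑ i ∈ s, nu v (f i) := by
  classical
  induction s using Finset.induction_on with
  | empty => simp [nu_zero]
  | insert i s hi ih =>
    rw [Finset.sum_insert hi, Finset.sum_insert hi]
    exact (nu_add_le hv _ _).trans (by linarith)

lemma nu_mul_le {v : G → ℝ} (hv : ∀ g, 0 ≤ v g) (hmul : ∀ g h, v (g * h) ≤ v g * v h)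
    (x y : MonoidAlgebra R G) : nu v (x * y) ≤ nu v x * nu v y := by
  classical
  rw [MonoidAlgebra.mul_def]
  unfold Finsupp.sum
  refine (nu_sum_le hv _ _).trans ?_
  have hx : nu v x = ∑ g ∈ x.coeff.support, ‖x.coeff g‖ * v g := rfl
  have hy : nu v y = ∑ g ∈ y.coeff.support, ‖y.coeff g‖ * v g := rfl
  rw [hx, hy, Finset.sum_mul]
  apply Finset.sum_le_sum
  intro g _
  refine (nu_sum_le hv _ _).trans ?_
  rw [Finset.mul_sum]
  apply Finset.sum_le_sum
  intro h _
  rw [nu_single]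
  calc ‖x.coeff g * y.coeff h‖ * v (g * h)
      ≤ (‖x.coeff g‖ * ‖y.coeff h‖) * (v g * v h) :=
        mul_le_mul (norm_mul_le _ _) (hmul g h) (hv _) (by positivity)
    _ = ‖x.coeff g‖ * v g * (‖y.coeff h‖ * v h) := by ring

lemma nu_mono {v v' : G → ℝ} (h : ∀ g, v g ≤ v' g) (x : MonoidAlgebra R G) :
    nu v x ≤ nu v' x := by
  unfold nu Finsupp.sum
  exact Finset.sum_le_sum fun g _ => mul_le_mul_of_nonneg_left (h g) (norm_nonneg _)

lemma nu_lin (ε : ℝ) (L : G → ℝ) (x : MonoidAlgebra R G) :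
    nu (fun g => 1 + ε * L g) x = nu (fun _ => 1) x + ε * nu L x := by
  unfold nu Finsupp.sum
  rw [Finset.mul_sum, ← Finset.sum_add_distrib]
  apply Finset.sum_congr rfl
  intro g _
  ring

lemma norm_T_le {S : Set G} {tr : R →+ ℂ} {c : ℝ} (hc : 0 ≤ c) (htr : ∀ a, ‖tr a‖ ≤ c * ‖a‖)
    (x : MonoidAlgebra R G) : ‖T S tr x‖ ≤ c * nu (fun _ => 1) x := by
  classical
  unfold T nu Finsupp.sum
  refine (norm_sum_le _ _).trans ?_
  rw [Finset.mul_sum]
  apply Finset.sum_le_sum
  intro g _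
  dsimp only
  split_ifs
  · rw [mul_one]; exact htr _
  · rw [norm_zero, mul_one]; positivity

lemma norm_W_le {S : Set G} {tr : R →+ ℂ} {w : G → G → ℝ} {L : G → ℝ} {c : ℝ} (hc : 0 ≤ c)
    (htr : ∀ a, ‖tr a‖ ≤ c * ‖a‖) (hL : ∀ g, 0 ≤ L g)
    (hw : ∀ g h, g * h ∈ S → |w g h| ≤ L g)
    (x y : MonoidAlgebra R G) : ‖W S tr w x y‖ ≤ c * nu L x * nu (fun _ => 1) y := by
  classical
  have hx : nu L x = ∑ g ∈ x.coeff.support, ‖x.coeff g‖ * L g := rfl
  have hy : nu (fun _ => 1) y = ∑ g ∈ y.coeff.support, ‖y.coeff g‖ * 1 := rfl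
  rw [hx, hy]
  unfold W Finsupp.sum
  refine (norm_sum_le _ _).trans ?_
  rw [mul_assoc, Finset.sum_mul, Finset.mul_sum]
  apply Finset.sum_le_sum
  intro g _
  dsimp only
  refine (norm_sum_le _ _).trans ?_
  rw [Finset.mul_sum, Finset.mul_sum]
  apply Finset.sum_le_sum
  intro h _
  split_ifs with hgh
  · rw [norm_mul, Complex.norm_real, Real.norm_eq_abs]
    calc |w g h| * ‖tr (x.coeff g * y.coeff h)‖
        ≤ L g * (c * (‖x.coeff g‖ * ‖y.coeff h‖)) := by
          apply mul_le_mul (hw g h hgh) _ (norm_nonneg _) (hL g)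
          exact (htr _).trans (mul_le_mul_of_nonneg_left (norm_mul_le _ _) hc)
      _ = c * (‖x.coeff g‖ * L g * (‖y.coeff h‖ * 1)) := by ring
  · rw [norm_zero]
    have := hL g
    positivity

/-- One step of the iteration. -/
noncomputable def step (a : MonoidAlgebra R G) : MonoidAlgebra R G :=
  3 • (a * a) - 2 • (a * a * a)

lemma step_defect (a : MonoidAlgebra R G) :
    step a * step a - step a = 4 • ((a * a - a) * (a * a - a) * (a * a - a))
      - 3 • ((a * a - a) * (a * a - a)) := by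
  unfold step
  noncomm_ring

lemma step_sub (a : MonoidAlgebra R G) :
    step a - a = (a * a - a) - 2 • ((a * a - a) * a) := by
  unfold step
  noncomm_ring

end norms

end Vale.Agent.P184
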