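import Vale.Agent.P184.L1

/-!
# Vanishing of the trace of an l1 idempotent
-/

set_option linter.unusedSectionVars false

namespace Vale.Agent.P184

open scoped BigOperators
open MonoidAlgebra

section vanish

/-- The data used to show that the trace over `S` vanishes: a length function `L` and a
function `w` on pairs with the two cocycle identities, dominated by `L`. -/
structure Cocycle {G : Type*} [Group G] (S : Set G) (L : G → ℝ) (w : G → G → ℝ) : Prop where
  L_nonneg : ∀ g, 0 ≤ L g
  L_mul : ∀ g h, L (g * h) ≤ L g + L h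
  w1 : ∀ g h, g * h ∈ S → w g h + w h g = 1
  w2 : ∀ g h k, g * h * k ∈ S → w (g * h) k - w g (h * k) + w (k * g) h = 1
  wL : ∀ g h, g * h ∈ S → |w g h| ≤ L g

/-- Every finite set `F` lies in a subgroup `H` on which there are cocycle data for a conjugation
invariant set which has the same intersection with `F` as `S`. -/
def Killed {G : Type*} [Group G] (S : Set G) : Prop :=
  ∀ F : Finset G, ∃ H : Subgroup G, (∀ g ∈ F, g ∈ H) ∧ ∃ S₀ : Set H,
    (∀ x : H, (x : G) ∈ F → (x ∈ S₀ ↔ (x : G) ∈ S)) ∧ (∀ g h : H, g * h ∈ S₀ ↔ h * g ∈ S₀) ∧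
    ∃ (L : H → ℝ) (w : H → H → ℝ), Cocycle S₀ L w

variable {G : Type*} [Group G] {R : Type*} [NormedRing R]

lemma nu_map (H : Subgroup G) (x : MonoidAlgebra R H) :
    nu (fun _ => 1) (MonoidAlgebra.mapDomainRingHom R H.subtype x) = nu (fun _ => 1) x := by
  classical
  unfold nu
  have h : (MonoidAlgebra.mapDomainRingHom R H.subtype x).coeff =
      Finsupp.mapDomain (H.subtype) x.coeff := rfl
  rw [h, Finsupp.sum_mapDomain_index_inj H.subtype_injective]

lemma T_map (S : Set G) (tr : R →+ ℂ) (H : Subgroup G) (x : MonoidAlgebra R H) :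
    T S tr (MonoidAlgebra.mapDomainRingHom R H.subtype x) = T {y : H | (y : G) ∈ S} tr x := by
  classical
  unfold T
  have h : (MonoidAlgebra.mapDomainRingHom R H.subtype x).coeff =
      Finsupp.mapDomain (H.subtype) x.coeff := rfl
  rw [h, Finsupp.sum_mapDomain_index_inj H.subtype_injective]
  rfl

lemma exists_lift (H : Subgroup G) (e : G → R) (F : Finset G) (hF : ∀ g ∈ F, g ∈ H) :
    ∃ b : MonoidAlgebra R H, MonoidAlgebra.mapDomainRingHom R H.subtype b = trunc e F ∧
      ∀ x ∈ b.coeff.support, (x : G) ∈ F := by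
  classical
  refine ⟨∑ g ∈ F.attach, single (⟨g.1, hF g.1 g.2⟩ : H) (e g.1), ?_, ?_⟩
  swap
  · intro x hx
    rw [MonoidAlgebra.coeff_sum] at hx
    have hx2 := Finsupp.support_finsetSum hx
    rw [Finset.mem_biUnion] at hx2
    obtain ⟨g, -, hg⟩ := hx2
    rw [MonoidAlgebra.coeff_single] at hg
    have := Finsupp.support_single_subset hg
    rw [Finset.mem_singleton] at this
    rw [this]
    exact g.2
  rw [map_sum]
  have h : ∀ g ∈ F.attach, MonoidAlgebra.mapDomainRingHom R H.subtype
      (single (⟨g.1, hF g.1 g.2⟩ : H) (e g.1)) = single g.1 (e g.1) := by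
    intro g _
    rw [MonoidAlgebra.mapDomainRingHom_apply, MonoidAlgebra.mapDomain_single]
    rfl
  rw [Finset.sum_congr rfl h]
  unfold trunc
  exact Finset.sum_attach F (fun g => single g (e g))

lemma T_congr_of_support {S S' : Set G} (tr : R →+ ℂ) (x : MonoidAlgebra R G)
    (h : ∀ g ∈ x.coeff.support, (g ∈ S ↔ g ∈ S')) : T S tr x = T S' tr x := by
  classical
  unfold T
  apply Finsupp.sum_congr
  intro g hg
  simp only [h g hg]

lemma T_trunc (S : Set G) (tr : R →+ ℂ) (e : G → R) (F : Finset G) :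
    T S tr (trunc e F) = (by classical exact ∑ g ∈ F, if g ∈ S then tr (e g) else 0) := by
  classical
  unfold T
  rw [Finsupp.sum_of_support_subset _ (trunc_support e F) _ (by simp)]
  apply Finset.sum_congr rfl
  intro g hg
  rw [trunc_coeff]
  simp [hg]

/-- If the conjugation invariant set `S` is killed, then the trace over `S` of every idempotent
of `l1(G, R)` vanishes. -/
theorem trace_zero {S : Set G} (hK : Killed S)
    {tr : R →+ ℂ} {c : ℝ} (htr : ∀ a b : R, tr (a * b) = tr (b * a)) (hc : 0 ≤ c)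
    (htrc : ∀ a, ‖tr a‖ ≤ c * ‖a‖) {e : G → R} (he : IdemR e) :
    ∑' g, S.indicator (fun g => tr (e g)) g = 0 := by
  classical
  have hind : ∀ g, S.indicator (fun g => tr (e g)) g = if g ∈ S then tr (e g) else 0 :=
    fun g => Set.indicator_apply _ _ _
  rw [tsum_congr hind]
  have hs := he.summ
  set E := ∑' g, ‖e g‖ with hE
  have hE0 : 0 ≤ E := tsum_nonneg fun _ => norm_nonneg _
  set f : G → ℂ := fun g => if g ∈ S then tr (e g) else 0 with hf
  have hfle : ∀ g, ‖f g‖ ≤ c * ‖e g‖ := by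
    intro g
    simp only [hf]
    split_ifs
    · exact htrc _
    · rw [norm_zero]; positivity
  have hfs : Summable f := Summable.of_norm_bounded (hs.mul_left c) hfle
  -- the main estimate
  have main : ∀ F : Finset G, (4 * E + 6) * 14 * (E - ∑ g ∈ F, ‖e g‖) * (2 * E + 3) ≤ 1 →
      ‖T S tr (trunc e F)‖ ≤ c * (2 * ((2 * E + 2) * (E - ∑ g ∈ F, ‖e g‖)) * (3 + 2 * E)) := by
    intro F hF
    have hEF_le : ∑ g ∈ F, ‖e g‖ ≤ E := hs.sum_le_tsum F (fun _ _ => norm_nonneg _)
    set η := E - ∑ g ∈ F, ‖e g‖ with hη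
    have hη0 : 0 ≤ η := by linarith
    obtain ⟨H, hFH, S₀, hS₀F, hS', L, w, hcoc⟩ := hK F
    obtain ⟨b, hb, hbF⟩ := exists_lift H e F hFH
    have hT : T S tr (trunc e F) = T S₀ tr b := by
      rw [← hb, T_map]
      apply T_congr_of_support
      intro x hx
      exact (hS₀F x (hbF x hx)).symm
    have hN : nu (fun _ => 1) b ≤ E := by
      rw [← nu_map H b, hb, nu_trunc]
      simpa using hEF_le
    have hN0 : 0 ≤ nu (fun _ => 1) b := nu_nonneg (fun _ => zero_le_one) b
    have hD : nu (fun _ => 1) (b * b - b) ≤ (2 * E + 1) * η := by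
      rw [← nu_map H (b * b - b), map_sub, map_mul, hb]
      exact nu_defect_le he F
    rw [hT]
    -- the case `η = 0` needs an extra epsilon: choose `δ > 0` arbitrary
    have hkey : ∀ δ : ℝ, 0 < δ → δ ≤ 1 →
        2 * ((2 * E + 1) * η + δ) * (3 + 2 * E) * 14 ≤ 14 →
        (2 * E + 1) * η + δ ≤ 1 / 14 →
        ‖T S₀ tr b‖ ≤
          c * (2 * ((2 * E + 1) * η + δ) * (3 + 2 * nu (fun _ => 1) b)) := by
      intro δ hδ _ h3 h4
      have hKL0 : 0 ≤ nu L (b * b - b) := nu_nonneg hcoc.L_nonneg _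
      set ε := δ / (nu L (b * b - b) + 1) with hε
      have hε0 : 0 < ε := by positivity
      have h5 : nu (fun g => 1 + ε * L g) (b * b - b) ≤ (2 * E + 1) * η + δ := by
        rw [nu_lin]
        have : ε * nu L (b * b - b) ≤ δ := by
          rw [hε, div_mul_eq_mul_div, div_le_iff₀ (by positivity)]
          nlinarith
        linarith
      apply T_bound hS' htr hc htrc hcoc.L_nonneg hcoc.L_mul hcoc.w1 hcoc.w2 hcoc.wL hε0 b h5 h4
      have hpos : 0 ≤ (2 * E + 1) * η + δ := by positivity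
      calc 2 * ((2 * E + 1) * η + δ) * (3 + 2 * nu (fun _ => 1) b)
          ≤ 2 * ((2 * E + 1) * η + δ) * (3 + 2 * E) := by
            apply mul_le_mul_of_nonneg_left _ (by positivity)
            linarith
        _ ≤ 1 := by linarith
    -- let `δ` tend to `0`
    have hsmall : ∀ δ : ℝ, 0 < δ → δ ≤ 1 / (14 * (4 * E + 6)) →
        ‖T S₀ tr b‖ ≤
          c * (2 * ((2 * E + 1) * η + δ) * (3 + 2 * E)) := by
      intro δ hδ hδ1
      have hden : 0 < 14 * (4 * E + 6) := by positivity
      rw [le_div_iff₀ hden] at hδ1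
      have q1 : (2 * E + 1) * η ≤ (2 * E + 3) * η := by nlinarith
      have q2 : (4 * E + 6) * 14 * ((2 * E + 3) * η) ≤ 1 := by
        calc (4 * E + 6) * 14 * ((2 * E + 3) * η) = (4 * E + 6) * 14 * η * (2 * E + 3) := by ring
          _ ≤ 1 := hF
      have q3 : (4 * E + 6) * 14 * ((2 * E + 1) * η) ≤ 1 := by
        have : (4 * E + 6) * 14 * ((2 * E + 1) * η) ≤ (4 * E + 6) * 14 * ((2 * E + 3) * η) :=
          mul_le_mul_of_nonneg_left q1 (by positivity)
        linarith
      have hδle : δ ≤ 1 := by nlinarith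
      have q4 : 0 ≤ (2 * E + 1) * η := by positivity
      refine (hkey δ hδ hδle ?_ ?_).trans ?_
      · nlinarith
      · nlinarith
      · apply mul_le_mul_of_nonneg_left _ hc
        apply mul_le_mul_of_nonneg_left _ (by positivity)
        linarith
    have hlim : Filter.Tendsto (fun δ : ℝ => c * (2 * ((2 * E + 1) * η + δ) * (3 + 2 * E)))
        (nhdsWithin 0 (Set.Ioi 0)) (nhds (c * (2 * ((2 * E + 1) * η + 0) * (3 + 2 * E)))) := by
      apply Filter.Tendsto.mono_left _ nhdsWithin_le_nhds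
      apply Continuous.tendsto
      fun_prop
    have hev : ∀ᶠ δ in nhdsWithin (0 : ℝ) (Set.Ioi 0),
        ‖T S₀ tr b‖ ≤ c * (2 * ((2 * E + 1) * η + δ) * (3 + 2 * E)) := by
      have hmem : Set.Ioc (0 : ℝ) (1 / (14 * (4 * E + 6))) ∈ nhdsWithin (0 : ℝ) (Set.Ioi 0) :=
        Ioc_mem_nhdsGT (by positivity)
      filter_upwards [hmem] with δ hδ
      exact hsmall δ hδ.1 hδ.2
    have hfin := ge_of_tendsto hlim hev
    refine hfin.trans ?_
    apply mul_le_mul_of_nonneg_left _ hc
    apply mul_le_mul_of_nonneg_right _ (by positivity)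
    nlinarith
  -- pass to the limit over finite sets
  have hTl : Filter.Tendsto (fun F : Finset G => T S tr (trunc e F)) Filter.atTop
      (nhds (∑' g, f g)) := by
    have : (fun F : Finset G => T S tr (trunc e F)) = fun F => ∑ g ∈ F, f g := by
      funext F
      rw [T_trunc]
    rw [this]
    exact hfs.hasSum
  have hEl : Filter.Tendsto (fun F : Finset G => E - ∑ g ∈ F, ‖e g‖) Filter.atTop (nhds 0) := by
    have h1 : Filter.Tendsto (fun F : Finset G => ∑ g ∈ F, ‖e g‖) Filter.atTop (nhds E) :=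
      hs.hasSum
    simpa using h1.const_sub E
  have hcond : ∀ᶠ F : Finset G in Filter.atTop,
      (4 * E + 6) * 14 * (E - ∑ g ∈ F, ‖e g‖) * (2 * E + 3) ≤ 1 := by
    have h1 : Filter.Tendsto (fun F : Finset G =>
        (4 * E + 6) * 14 * (E - ∑ g ∈ F, ‖e g‖) * (2 * E + 3)) Filter.atTop
        (nhds ((4 * E + 6) * 14 * 0 * (2 * E + 3))) :=
      (hEl.const_mul _).mul_const _
    have h2 : (4 * E + 6) * 14 * 0 * (2 * E + 3) < (1 : ℝ) := by simp
    exact (h1.eventually_lt_const h2).mono fun _ h => h.le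
  have hR : Filter.Tendsto (fun F : Finset G =>
      c * (2 * ((2 * E + 2) * (E - ∑ g ∈ F, ‖e g‖)) * (3 + 2 * E))) Filter.atTop
      (nhds (c * (2 * ((2 * E + 2) * 0) * (3 + 2 * E)))) :=
    (((hEl.const_mul _).const_mul _).mul_const _).const_mul _
  have hfinal : ‖∑' g, f g‖ ≤ c * (2 * ((2 * E + 2) * 0) * (3 + 2 * E)) :=
    le_of_tendsto_of_tendsto hTl.norm hR (hcond.mono fun F hF => main F hF)
  have hz : ‖∑' g, f g‖ ≤ 0 := by simpa using hfinal
  exact norm_le_zero_iff.1 hz

end vanish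

end Vale.Agent.P184
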